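import Vale.Agent.P372.MathlibUsed

open Matrix
open scoped ComplexOrder

namespace Vale.Agent.P372

namespace H23

variable {m : Type} [Fintype m] [DecidableEq m]

/-- Spectral projections of one Hermitian matrix. -/
theorem spec_one (ν : Matrix m m ℂ) (hν : ν.IsHermitian) :
    ∃ (S : Type) (_ : Fintype S) (Q : S → Matrix m m ℂ) (lam : S → ℝ),
      (∀ s, (Q s).IsHermitian) ∧ (∀ s, Q s * Q s = Q s) ∧ ∑ s, Q s = 1 ∧
      (∀ s, ν * Q s = (lam s : ℂ) • Q s) ∧
      ∀ X : Matrix m m ℂ, Commute X ν → ∀ s, Commute X (Q s) := by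
  classical
  obtain ⟨U, hU⟩ : ∃ U : Matrix m m ℂ, U = (hν.eigenvectorUnitary : Matrix m m ℂ) := ⟨_, rfl⟩
  have hU1 : Uᴴ * U = 1 := by
    rw [hU]
    exact Unitary.coe_star_mul_self hν.eigenvectorUnitary
  have hU2 : U * Uᴴ = 1 := mul_eq_one_comm.mp hU1
  obtain ⟨d, hd⟩ : ∃ d : m → ℝ, d = hν.eigenvalues := ⟨_, rfl⟩
  have hsp : ν = U * diagonal (fun i => (d i : ℂ)) * Uᴴ := by
    have h := hν.spectral_theorem
    rw [Unitary.conjStarAlgAut_apply] at h
    rw [hU, hd]
    exact h
  obtain ⟨D, hD⟩ : ∃ D : Finset ℝ, D = Finset.univ.image d := ⟨_, rfl⟩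
  obtain ⟨P, hP⟩ : ∃ P : ℝ → Matrix m m ℂ, P = fun x => U *
    diagonal (fun i => if d i = x then (1 : ℂ) else 0) * Uᴴ := ⟨_, rfl⟩
  have key : ∀ (e f : m → ℂ), (U * diagonal e * Uᴴ) * (U * diagonal f * Uᴴ) =
      U * diagonal (fun i => e i * f i) * Uᴴ := by
    intro e f
    calc (U * diagonal e * Uᴴ) * (U * diagonal f * Uᴴ) =
        U * diagonal e * (Uᴴ * U) * diagonal f * Uᴴ := by simp only [Matrix.mul_assoc]
      _ = _ := by rw [hU1, Matrix.mul_one, Matrix.mul_assoc U, diagonal_mul_diagonal]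
  refine ⟨D, inferInstance, fun s => P s.1, fun s => s.1, ?_, ?_, ?_, ?_, ?_⟩
  · intro s
    rw [hP]
    show (U * diagonal _ * Uᴴ)ᴴ = _
    rw [conjTranspose_mul, conjTranspose_mul, conjTranspose_conjTranspose,
      diagonal_conjTranspose, ← Matrix.mul_assoc]
    show _ = U * diagonal _ * Uᴴ
    congr 3
    funext i
    simp only [Pi.star_apply]
    split_ifs <;> simp
  · intro s
    rw [hP]
    show (U * diagonal _ * Uᴴ) * (U * diagonal _ * Uᴴ) = _
    rw [key]
    congr 3
    funext i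
    split_ifs <;> simp
  · have h1 : ∑ s : D, P s.1 = ∑ x ∈ D, P x := (Finset.sum_coe_sort D P)
    rw [h1, hP, ← Matrix.sum_mul, ← Matrix.mul_sum]
    have h2 : ∑ x ∈ D, diagonal (fun i => if d i = x then (1 : ℂ) else 0) =
        (1 : Matrix m m ℂ) := by
      ext i j
      rw [Matrix.sum_apply]
      by_cases hij : i = j
      · subst hij
        simp only [diagonal_apply_eq, Matrix.one_apply_eq]
        rw [Finset.sum_ite_eq, if_pos]
        rw [hD]
        exact Finset.mem_image_of_mem d (Finset.mem_univ i)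
      · rw [Matrix.one_apply_ne hij]
        exact Finset.sum_eq_zero fun x _ => diagonal_apply_ne _ hij
    rw [h2, Matrix.mul_one, hU2]
  · intro s
    rw [hP]
    nth_rewrite 1 [hsp]
    show (U * diagonal _ * Uᴴ) * (U * diagonal _ * Uᴴ) = _
    rw [key, ← Matrix.smul_mul, ← Matrix.mul_smul]
    congr 2
    ext i j
    by_cases hij : i = j
    · subst hij
      simp only [diagonal_apply_eq, Matrix.smul_apply, smul_eq_mul]
      split_ifs with h
      · rw [h]
      · simp
    · rw [diagonal_apply_ne _ hij, Matrix.smul_apply, diagonal_apply_ne _ hij, smul_zero]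
  · intro X hX s
    -- move to the eigenbasis
    obtain ⟨Y, hY⟩ : ∃ Y, Y = Uᴴ * X * U := ⟨_, rfl⟩
    have hXY : X = U * Y * Uᴴ := by
      rw [hY]
      calc X = (U * Uᴴ) * X * (U * Uᴴ) := by rw [hU2, Matrix.one_mul, Matrix.mul_one]
        _ = _ := by simp only [Matrix.mul_assoc]
    have h1 : Y * diagonal (fun i => (d i : ℂ)) = diagonal (fun i => (d i : ℂ)) * Y := by
      have h2 : X * ν = ν * X := hX
      rw [hsp] at h2
      calc Y * diagonal (fun i => (d i : ℂ)) =
          Uᴴ * (X * (U * diagonal (fun i => (d i : ℂ)) * Uᴴ)) * U := by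
            rw [hY]
            calc Uᴴ * X * U * diagonal (fun i => (d i : ℂ)) =
                Uᴴ * X * U * diagonal (fun i => (d i : ℂ)) * (Uᴴ * U) := by
                  rw [hU1, Matrix.mul_one]
              _ = _ := by simp only [Matrix.mul_assoc]
        _ = Uᴴ * ((U * diagonal (fun i => (d i : ℂ)) * Uᴴ) * X) * U := by rw [h2]
        _ = (Uᴴ * U) * diagonal (fun i => (d i : ℂ)) * (Uᴴ * X * U) := by
            simp only [Matrix.mul_assoc]
        _ = _ := by rw [hU1, Matrix.one_mul, hY]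
    have h3 : ∀ i j, d i ≠ d j → Y i j = 0 := by
      intro i j hij
      have h4 := congrFun (congrFun h1 i) j
      rw [Matrix.mul_diagonal, Matrix.diagonal_mul] at h4
      have h5 : Y i j * ((d j : ℂ) - d i) = 0 := by
        rw [mul_sub, h4]
        ring
      rcases mul_eq_zero.mp h5 with h6 | h6
      · exact h6
      · exfalso
        apply hij
        have h7 := sub_eq_zero.mp h6
        exact_mod_cast h7.symm
    have h8 : Y * diagonal (fun i => if d i = s.1 then (1 : ℂ) else 0) =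
        diagonal (fun i => if d i = s.1 then (1 : ℂ) else 0) * Y := by
      ext i j
      rw [Matrix.mul_diagonal, Matrix.diagonal_mul]
      by_cases hij : d i = d j
      · rw [hij]
        ring
      · rw [h3 i j hij]
        ring
    rw [hP]
    show X * (U * diagonal _ * Uᴴ) = (U * diagonal _ * Uᴴ) * X
    rw [hXY]
    calc (U * Y * Uᴴ) * (U * diagonal (fun i => if d i = s.1 then (1 : ℂ) else 0) * Uᴴ) =
        U * (Y * (Uᴴ * U) * diagonal (fun i => if d i = s.1 then (1 : ℂ) else 0)) * Uᴴ := by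
          simp only [Matrix.mul_assoc]
      _ = U * (diagonal (fun i => if d i = s.1 then (1 : ℂ) else 0) * Y) * Uᴴ := by
          rw [hU1, Matrix.mul_one, h8]
      _ = (U * diagonal (fun i => if d i = s.1 then (1 : ℂ) else 0) * (Uᴴ * U) * Y) * Uᴴ := by
          rw [hU1, Matrix.mul_one]
          simp only [Matrix.mul_assoc]
      _ = _ := by simp only [Matrix.mul_assoc]

/-- Joint spectral projections of a finite family of commuting Hermitian matrices. -/
theorem joint_spec_finset {ι : Type} (I : Finset ι) (ν : ι → Matrix m m ℂ)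
    (hν : ∀ i, (ν i).IsHermitian) (hc : ∀ i j, Commute (ν i) (ν j)) :
    ∃ (S : Type) (_ : Fintype S) (Q : S → Matrix m m ℂ) (lam : ι → S → ℝ),
      (∀ s, (Q s).IsHermitian) ∧ (∀ s, Q s * Q s = Q s) ∧ ∑ s, Q s = 1 ∧
      (∀ i ∈ I, ∀ s, ν i * Q s = (lam i s : ℂ) • Q s) ∧
      ∀ X : Matrix m m ℂ, (∀ i, Commute X (ν i)) → ∀ s, Commute X (Q s) := by
  classical
  induction I using Finset.induction_on with
  | empty =>
    refine ⟨Unit, inferInstance, fun _ => 1, fun _ _ => 0, fun _ => isHermitian_one,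
      fun _ => Matrix.one_mul 1, by simp, by simp, fun X _ _ => Commute.one_right X⟩
  | insert a I ha ih =>
    obtain ⟨S, iS, Q, lam, hQ1, hQ2, hQ3, hQ4, hQ5⟩ := ih
    obtain ⟨S', iS', P, mu, hP1, hP2, hP3, hP4, hP5⟩ := spec_one (ν a) (hν a)
    have hcomm : ∀ s s', Commute (Q s) (P s') := fun s s' =>
      hP5 (Q s) (hQ5 (ν a) (fun i => hc a i) s).symm s'
    refine ⟨S × S', inferInstance, fun p => Q p.1 * P p.2,
      fun i p => if i = a then mu p.2 else lam i p.1, ?_, ?_, ?_, ?_, ?_⟩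
    · intro p
      show (Q p.1 * P p.2)ᴴ = _
      rw [conjTranspose_mul, (hQ1 p.1).eq, (hP1 p.2).eq]
      exact (hcomm p.1 p.2).symm
    · intro p
      show Q p.1 * P p.2 * (Q p.1 * P p.2) = _
      calc Q p.1 * P p.2 * (Q p.1 * P p.2) = Q p.1 * (P p.2 * Q p.1) * P p.2 := by
            simp only [Matrix.mul_assoc]
        _ = Q p.1 * (Q p.1 * P p.2) * P p.2 := by rw [(hcomm p.1 p.2).symm.eq]
        _ = (Q p.1 * Q p.1) * (P p.2 * P p.2) := by simp only [Matrix.mul_assoc]
        _ = _ := by rw [hQ2, hP2]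
    · rw [Fintype.sum_prod_type]
      simp only [← Matrix.mul_sum, hP3, Matrix.mul_one, hQ3]
    · intro i hi p
      show ν i * (Q p.1 * P p.2) = _
      by_cases h : i = a
      · subst h
        simp only [if_true]
        calc ν i * (Q p.1 * P p.2) = ν i * (P p.2 * Q p.1) := by rw [(hcomm p.1 p.2).eq]
          _ = (ν i * P p.2) * Q p.1 := by rw [Matrix.mul_assoc]
          _ = (mu p.2 : ℂ) • (P p.2 * Q p.1) := by rw [hP4, Matrix.smul_mul]
          _ = _ := by rw [(hcomm p.1 p.2).eq]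
      · simp only [if_neg h]
        have hi' : i ∈ I := Finset.mem_of_mem_insert_of_ne hi h
        rw [← Matrix.mul_assoc, hQ4 i hi', Matrix.smul_mul]
    · intro X hX p
      exact (hQ5 X hX p.1).mul_right (hP5 X (hX a) p.2)

theorem joint_spec {ι : Type} [Finite ι] (ν : ι → Matrix m m ℂ)
    (hν : ∀ i, (ν i).IsHermitian) (hc : ∀ i j, Commute (ν i) (ν j)) :
    ∃ (S : Type) (_ : Fintype S) (Q : S → Matrix m m ℂ) (lam : ι → S → ℝ),
      (∀ s, (Q s).IsHermitian) ∧ (∀ s, Q s * Q s = Q s) ∧ ∑ s, Q s = 1 ∧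
      (∀ i s, ν i * Q s = (lam i s : ℂ) • Q s) ∧
      ∀ X : Matrix m m ℂ, (∀ i, Commute X (ν i)) → ∀ s, Commute X (Q s) := by
  classical
  have := Fintype.ofFinite ι
  obtain ⟨S, iS, Q, lam, h1, h2, h3, h4, h5⟩ := joint_spec_finset Finset.univ ν hν hc
  exact ⟨S, iS, Q, lam, h1, h2, h3, fun i s => h4 i (Finset.mem_univ i) s, h5⟩

end H23

end Vale.Agent.P372
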