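import Vale.Agent.P372.BF.Final
import Vale.Agent.P372.H23.Joint
import Vale.Agent.P372.H23.Couple

open Matrix Kronecker
open scoped ComplexOrder MatrixOrder

set_option linter.unusedSectionVars false

namespace Vale.Agent.P372

namespace H23

variable {A B X Y D : Type} [Fintype A] [DecidableEq A] [Fintype B] [DecidableEq B]
  [Fintype X] [DecidableEq X] [Fintype Y] [DecidableEq Y] [Fintype D] [DecidableEq D]

/-- A block of an operator on `X × D`. -/
def blk (F : Matrix (X × D) (X × D) ℂ) (d d' : D) : Matrix X X ℂ :=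
  fun x x' => F (x, d) (x', d')

/-- Partial trace over the second system. -/
def ptr (F : Matrix (X × D) (X × D) ℂ) : Matrix X X ℂ := ∑ d, blk F d d

/-- The operator `M` after Bob's filter `V`. -/
def ft (V : Matrix D Y ℂ) (M : Matrix (X × Y) (X × Y) ℂ) : Matrix (X × D) (X × D) ℂ :=
  fun p q => ∑ y, ∑ y', V p.2 y * M (p.1, y) (q.1, y') * star (V q.2 y')

/-- Positivity under a filter, in coordinates. -/
theorem conj_posSemidef (V : Matrix D Y ℂ) {M : Matrix (X × Y) (X × Y) ℂ} (hM : M.PosSemidef) :
    (Matrix.of fun p q : X × D =>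
      ∑ y, ∑ y', V p.2 y * M (p.1, y) (q.1, y') * star (V q.2 y')).PosSemidef := by
  obtain ⟨W, hW⟩ : ∃ W : Matrix (X × D) (X × Y) ℂ,
      W = Matrix.of fun p u => if p.1 = u.1 then V p.2 u.2 else 0 := ⟨_, rfl⟩
  have h : (Matrix.of fun p q : X × D =>
      ∑ y, ∑ y', V p.2 y * M (p.1, y) (q.1, y') * star (V q.2 y')) = W * M * Wᴴ := by
    ext p q
    have e1 : ∀ u : X × Y, (W * M) p u = ∑ y, V p.2 y * M (p.1, y) u := by
      intro u
      rw [Matrix.mul_apply, Fintype.sum_prod_type, Finset.sum_eq_single p.1]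
      · simp [hW]
      · intro x _ hx
        refine Finset.sum_eq_zero fun y _ => ?_
        simp [hW, Ne.symm hx]
      · simp
    have e2 : ∀ u : X × Y, Wᴴ u q = if q.1 = u.1 then star (V q.2 u.2) else 0 := by
      intro u
      rw [conjTranspose_apply, hW, Matrix.of_apply]
      split_ifs <;> simp
    rw [Matrix.mul_apply, Fintype.sum_prod_type, Finset.sum_eq_single q.1]
    · simp only [e1, e2, Matrix.of_apply, Finset.sum_mul, if_true]
      rw [Finset.sum_comm]
    · intro x _ hx
      refine Finset.sum_eq_zero fun y _ => ?_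
      rw [e2, if_neg (Ne.symm hx), mul_zero]
    · simp
  rw [h]
  exact hM.mul_mul_conjTranspose_same _

theorem ft_posSemidef (V : Matrix D Y ℂ) {M : Matrix (X × Y) (X × Y) ℂ} (hM : M.PosSemidef) :
    (ft V M).PosSemidef := conj_posSemidef V hM

theorem ft_sum {ι : Type} (s : Finset ι) (V : Matrix D Y ℂ) (M : ι → Matrix (X × Y) (X × Y) ℂ) :
    ft V (∑ i ∈ s, M i) = ∑ i ∈ s, ft V (M i) := by
  ext p q
  simp only [ft, Matrix.sum_apply, Finset.mul_sum, Finset.sum_mul]
  calc ∑ y, ∑ y', ∑ i ∈ s, V p.2 y * M i (p.1, y) (q.1, y') * star (V q.2 y') =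
      ∑ y, ∑ i ∈ s, ∑ y', V p.2 y * M i (p.1, y) (q.1, y') * star (V q.2 y') :=
        Finset.sum_congr rfl fun y _ => Finset.sum_comm
    _ = _ := Finset.sum_comm

theorem ft_sub (V : Matrix D Y ℂ) (M N : Matrix (X × Y) (X × Y) ℂ) :
    ft V (M - N) = ft V M - ft V N := by
  ext p q
  simp only [ft, Matrix.sub_apply, mul_sub, sub_mul, Finset.sum_sub_distrib]

theorem ptr_sub (F G : Matrix (X × D) (X × D) ℂ) : ptr (F - G) = ptr F - ptr G := by
  ext x x'
  simp only [ptr, blk, Matrix.sum_apply, Matrix.sub_apply, Finset.sum_sub_distrib]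

theorem ptr_posSemidef {F : Matrix (X × D) (X × D) ℂ} (hF : F.PosSemidef) :
    (ptr F).PosSemidef := by
  refine posSemidef_sum _ fun d _ => ?_
  exact hF.submatrix fun x => (x, d)

/-- An operator on the first system that commutes with all blocks. -/
theorem blk_mul_left (Q : Matrix X X ℂ) (F : Matrix (X × D) (X × D) ℂ) (d d' : D) :
    blk ((Q ⊗ₖ (1 : Matrix D D ℂ)) * F) d d' = Q * blk F d d' := by
  ext x x'
  simp only [blk, Matrix.mul_apply, Fintype.sum_prod_type, kroneckerMap_apply, Matrix.one_apply]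
  refine Finset.sum_congr rfl fun z _ => ?_
  rw [Finset.sum_eq_single d]
  · simp
  · intro e _ he
    simp [Ne.symm he]
  · simp

theorem blk_mul_right (Q : Matrix X X ℂ) (F : Matrix (X × D) (X × D) ℂ) (d d' : D) :
    blk (F * (Q ⊗ₖ (1 : Matrix D D ℂ))) d d' = blk F d d' * Q := by
  ext x x'
  simp only [blk, Matrix.mul_apply, Fintype.sum_prod_type, kroneckerMap_apply, Matrix.one_apply]
  refine Finset.sum_congr rfl fun z _ => ?_
  rw [Finset.sum_eq_single d']
  · simp
  · intro e _ he
    simp [he]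
  · simp

theorem blk_ext {F G : Matrix (X × D) (X × D) ℂ} (h : ∀ d d', blk F d d' = blk G d d') : F = G := by
  ext p q
  exact congrFun (congrFun (h p.2 q.2) p.1) q.1

/-- Copies, some of them flagged: `S` at the flagged copies, `α` at the other ones. -/
def flag {n : ℕ} (S : Matrix (A × B) (A × B) ℂ) (α : ℝ) (τ : Fin n → Bool) :
    Matrix ((Fin n → A) × (Fin n → B)) ((Fin n → A) × (Fin n → B)) ℂ :=
  fun p q => ∏ i, (if τ i then S else (α : ℂ) • 1) (p.1 i, p.2 i) (q.1 i, q.2 i)

/-- Products of positive site operators are positive. -/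
theorem site_posSemidef {n : ℕ} {Z : Type} [Fintype Z] [DecidableEq Z] {W : Type} [Fintype W]
    {M : Fin n → Matrix Z Z ℂ} (h : ∀ i, (M i).PosSemidef) (f : W → Fin n → Z) :
    (Matrix.of fun p q : W => ∏ i, M i (f p i) (f q i)).PosSemidef := by
  have h1 := (BF.piD_posSemidef (D := fun _ : Fin n => Z) h).submatrix f
  exact h1

theorem smul_one_posSemidef {Z : Type} [Fintype Z] [DecidableEq Z] {α : ℝ} (hα : 0 ≤ α) :
    ((α : ℂ) • (1 : Matrix Z Z ℂ)).PosSemidef :=
  PosSemidef.one.smul (Complex.zero_le_real.mpr hα)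

theorem flag_posSemidef {n : ℕ} {S : Matrix (A × B) (A × B) ℂ} {α : ℝ} (hS : S.PosSemidef)
    (hα : 0 ≤ α) (τ : Fin n → Bool) : (flag S α τ).PosSemidef := by
  have h := site_posSemidef (M := fun i => if τ i then S else (α : ℂ) • 1)
    (fun i => by
      show (if τ i then S else (α : ℂ) • 1).PosSemidef
      split_ifs
      · exact hS
      · exact smul_one_posSemidef hα)
    (fun (p : (Fin n → A) × (Fin n → B)) i => (p.1 i, p.2 i))
  exact h

/-- Flagging one more copy decreases the operator. -/
theorem flag_update {n : ℕ} {S : Matrix (A × B) (A × B) ℂ} {α : ℝ} (hS : S.PosSemidef)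
    (hα : 0 ≤ α) (hS' : ((α : ℂ) • 1 - S).PosSemidef) (τ : Fin n → Bool) (i : Fin n) :
    (flag S α (Function.update τ i false) - flag S α (Function.update τ i true)).PosSemidef := by
  have h := site_posSemidef (M := fun j => if j = i then (α : ℂ) • 1 - S else
      if τ j then S else (α : ℂ) • 1)
    (fun j => by
      show (if j = i then (α : ℂ) • 1 - S else if τ j then S else (α : ℂ) • 1).PosSemidef
      split_ifs
      · exact hS'
      · exact hS
      · exact smul_one_posSemidef hα)
    (fun (p : (Fin n → A) × (Fin n → B)) i => (p.1 i, p.2 i))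
  have e : (flag S α (Function.update τ i false) - flag S α (Function.update τ i true)) =
      Matrix.of fun p q : (Fin n → A) × (Fin n → B) => ∏ j, (if j = i then (α : ℂ) • 1 - S else
        if τ j then S else (α : ℂ) • 1) (p.1 j, p.2 j) (q.1 j, q.2 j) := by
    ext p q
    rw [Matrix.sub_apply, Matrix.of_apply]
    simp only [flag]
    rw [← Finset.mul_prod_erase Finset.univ _ (Finset.mem_univ i),
      ← Finset.mul_prod_erase Finset.univ _ (Finset.mem_univ i),
      ← Finset.mul_prod_erase Finset.univ _ (Finset.mem_univ i)]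
    have e1 : ∀ b, ∏ j ∈ Finset.univ.erase i, (if Function.update τ i b j = true then S else
        (α : ℂ) • 1) (p.1 j, p.2 j) (q.1 j, q.2 j) = ∏ j ∈ Finset.univ.erase i,
        (if j = i then (α : ℂ) • 1 - S else if τ j = true then S else (α : ℂ) • 1)
          (p.1 j, p.2 j) (q.1 j, q.2 j) := by
      intro b
      refine Finset.prod_congr rfl fun j hj => ?_
      have hj' : j ≠ i := Finset.ne_of_mem_erase hj
      rw [Function.update_of_ne hj', if_neg hj']
    rw [e1, e1]
    simp only [Function.update_self, if_true, Bool.false_eq_true, if_false, Matrix.sub_apply]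
    ring
  rw [e]
  exact h

/-- The copies of `α + S`. -/
theorem sum_flag {n : ℕ} (S : Matrix (A × B) (A × B) ℂ) (α : ℝ) :
    ∑ τ : Fin n → Bool, flag S α τ = fun p q => ∏ i, ((α : ℂ) • 1 + S) (p.1 i, p.2 i)
      (q.1 i, q.2 i) := by
  ext p q
  rw [Matrix.sum_apply]
  simp only [flag]
  have h2 := Finset.prod_univ_sum (fun _ : Fin n => (Finset.univ : Finset Bool))
    (fun i b => (if b = true then S else (α : ℂ) • 1) (p.1 i, p.2 i) (q.1 i, q.2 i))
  rw [Fintype.piFinset_univ] at h2
  rw [← h2]
  refine Finset.prod_congr rfl fun i _ => ?_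
  rw [Fintype.sum_bool]
  simp only [if_true, Bool.false_eq_true, if_false, Matrix.add_apply]
  ring

/-- The site operator of two filtered copies of Bob's system. -/
theorem pair_site {S : Matrix (A × B) (A × B) ℂ} {α : ℝ} (hS : S.PosSemidef) (hα : 0 ≤ α)
    (s s' : Bool) (h : ¬ (s = true ∧ s' = true)) :
    (Matrix.of fun p q : A × B × B => ∑ z, (if s then S else (α : ℂ) • 1) (p.1, p.2.1) (z, q.2.1) *
      (if s' then S else (α : ℂ) • 1) (z, p.2.2) (q.1, q.2.2)).PosSemidef := by
  have hα' : (0 : ℂ) ≤ (α : ℂ) := Complex.zero_le_real.mpr hα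
  cases s <;> cases s'
  · have e : (Matrix.of fun p q : A × B × B => ∑ z, (if false = true then S else (α : ℂ) • 1)
        (p.1, p.2.1) (z, q.2.1) * (if false = true then S else (α : ℂ) • 1) (z, p.2.2)
        (q.1, q.2.2)) = ((α * α : ℝ) : ℂ) • 1 := by
      ext p q
      simp only [Bool.false_eq_true, if_false, Matrix.of_apply, Matrix.smul_apply,
        Matrix.one_apply, smul_eq_mul, Prod.mk.injEq]
      rw [Finset.sum_eq_single q.1]
      · rcases p with ⟨a, b, c⟩
        rcases q with ⟨a', b', c'⟩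
        simp only [Prod.mk.injEq, true_and, Complex.ofReal_mul]
        by_cases h1 : a = a' <;> by_cases h2 : b = b' <;> by_cases h3 : c = c' <;>
          simp [h1, h2, h3]
      · intro z _ hz
        simp [hz]
      · simp
    rw [e]
    exact smul_one_posSemidef (mul_nonneg hα hα)
  · have e : (Matrix.of fun p q : A × B × B => ∑ z, (if false = true then S else (α : ℂ) • 1)
        (p.1, p.2.1) (z, q.2.1) * (if true = true then S else (α : ℂ) • 1) (z, p.2.2)
        (q.1, q.2.2)) = (α : ℂ) • (Matrix.of fun p q : A × B × B =>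
          S ((fun u : A × B × B => (u.1, u.2.2)) p) ((fun u : A × B × B => (u.1, u.2.2)) q) *
          if (fun u : A × B × B => u.2.1) p = (fun u : A × B × B => u.2.1) q then 1 else 0) := by
      ext p q
      simp only [Bool.false_eq_true, if_false, if_true, Matrix.of_apply, Matrix.smul_apply,
        Matrix.one_apply, smul_eq_mul, Prod.mk.injEq]
      rw [Finset.sum_eq_single p.1]
      · simp only [true_and]
        by_cases h2 : p.2.1 = q.2.1 <;> simp [h2]
      · intro z _ hz
        simp [Ne.symm hz]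
      · simp
    rw [e]
    exact (BF.ext_posSemidef hS _ _).smul hα'
  · have e : (Matrix.of fun p q : A × B × B => ∑ z, (if true = true then S else (α : ℂ) • 1)
        (p.1, p.2.1) (z, q.2.1) * (if false = true then S else (α : ℂ) • 1) (z, p.2.2)
        (q.1, q.2.2)) = (α : ℂ) • (Matrix.of fun p q : A × B × B =>
          S ((fun u : A × B × B => (u.1, u.2.1)) p) ((fun u : A × B × B => (u.1, u.2.1)) q) *
          if (fun u : A × B × B => u.2.2) p = (fun u : A × B × B => u.2.2) q then 1 else 0) := by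
      ext p q
      simp only [Bool.false_eq_true, if_false, if_true, Matrix.of_apply, Matrix.smul_apply,
        Matrix.one_apply, smul_eq_mul, Prod.mk.injEq]
      rw [Finset.sum_eq_single q.1]
      · simp only [true_and]
        by_cases h2 : p.2.2 = q.2.2 <;> simp [h2, mul_comm]
      · intro z _ hz
        simp [hz]
      · simp
    rw [e]
    exact (BF.ext_posSemidef hS _ _).smul hα'
  · exact absurd ⟨rfl, rfl⟩ h

theorem sum_reorder {ι κ : Type} [Fintype ι] [Fintype κ] (f g : ι → κ → κ → ℂ) :
    ∑ z, (∑ y, ∑ y', f z y y') * (∑ w, ∑ w', g z w w') =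
      ∑ y, ∑ w, ∑ y', ∑ w', ∑ z, f z y y' * g z w w' := by
  simp only [Finset.sum_mul_sum]
  rw [Finset.sum_comm]
  refine Finset.sum_congr rfl fun y _ => ?_
  rw [Finset.sum_comm]
  refine Finset.sum_congr rfl fun w _ => ?_
  rw [Finset.sum_comm]
  refine Finset.sum_congr rfl fun y' _ => ?_
  rw [Finset.sum_comm]

/-- If no copy is flagged for both copies of Bob's system, the product is positive. -/
theorem pair_posSemidef {n : ℕ} {S : Matrix (A × B) (A × B) ℂ} {α : ℝ} (hS : S.PosSemidef)
    (hα : 0 ≤ α) (V : Matrix D (Fin n → B) ℂ) (τ τ' : Fin n → Bool)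
    (h : ∀ i, ¬ (τ i = true ∧ τ' i = true)) :
    (Matrix.of fun p q : (Fin n → A) × (D × D) =>
      (blk (ft V (flag S α τ)) p.2.1 q.2.1 * blk (ft V (flag S α τ')) p.2.2 q.2.2) p.1
        q.1).PosSemidef := by
  have h1 := site_posSemidef (fun i => pair_site hS hα (τ i) (τ' i) (h i))
    (fun (p : (Fin n → A) × ((Fin n → B) × (Fin n → B))) i => (p.1 i, p.2.1 i, p.2.2 i))
  have h2 := conj_posSemidef (Matrix.of fun (d : D × D) (y : (Fin n → B) × (Fin n → B)) =>
    V d.1 y.1 * V d.2 y.2) h1
  refine (congrArg Matrix.PosSemidef ?_).mpr h2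
  ext p q
  simp only [Matrix.of_apply, Matrix.mul_apply, blk, ft, star_mul', Fintype.sum_prod_type]
  have e1 : ∀ (y y' w w' : Fin n → B), ∏ i, ∑ z, (if τ i = true then S else (α : ℂ) • 1)
      (p.1 i, y i) (z, y' i) * (if τ' i = true then S else (α : ℂ) • 1) (z, w i) (q.1 i, w' i) =
      ∑ z : Fin n → A, flag S α τ (p.1, y) (z, y') * flag S α τ' (z, w) (q.1, w') := by
    intro y y' w w'
    have h3 := Finset.prod_univ_sum (fun _ : Fin n => (Finset.univ : Finset A))
      (fun i z => (if τ i = true then S else (α : ℂ) • 1)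
        (p.1 i, y i) (z, y' i) * (if τ' i = true then S else (α : ℂ) • 1) (z, w i) (q.1 i, w' i))
    rw [Fintype.piFinset_univ] at h3
    rw [h3]
    simp only [flag, Finset.prod_mul_distrib]
  simp only [e1]
  rw [sum_reorder]
  refine Finset.sum_congr rfl fun y _ => Finset.sum_congr rfl fun w _ =>
    Finset.sum_congr rfl fun y' _ => Finset.sum_congr rfl fun w' _ => ?_
  rw [Finset.mul_sum, Finset.sum_mul]
  refine Finset.sum_congr rfl fun z _ => ?_
  ring

end H23

end Vale.Agent.P372
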