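import Vale.Agent.P372.H23.Ext

open Matrix Kronecker
open scoped ComplexOrder MatrixOrder

set_option linter.unusedSectionVars false

namespace Vale.Agent.P372

namespace H23

variable {A B X Y D : Type} [Fintype A] [DecidableEq A] [Fintype B] [DecidableEq B]
  [Fintype X] [DecidableEq X] [Fintype Y] [DecidableEq Y] [Fintype D] [DecidableEq D]

theorem kron_one_conj {Q : Matrix X X ℂ} (hQ : Q.IsHermitian) :
    (Q ⊗ₖ (1 : Matrix D D ℂ))ᴴ = Q ⊗ₖ (1 : Matrix D D ℂ) := by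
  rw [conjTranspose_kronecker, hQ.eq, conjTranspose_one]

/-- A projection that commutes with all blocks of a positive operator. -/
theorem proj_posSemidef {Q : Matrix X X ℂ} (hQ : Q.IsHermitian) (hQ2 : Q * Q = Q)
    {M : Matrix (X × D) (X × D) ℂ} (hM : M.PosSemidef) (hc : ∀ d d', Commute Q (blk M d d')) :
    ((Q ⊗ₖ (1 : Matrix D D ℂ)) * M).PosSemidef := by
  have h : (Q ⊗ₖ (1 : Matrix D D ℂ)) * M =
      (Q ⊗ₖ (1 : Matrix D D ℂ)) * M * (Q ⊗ₖ (1 : Matrix D D ℂ))ᴴ := by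
    rw [kron_one_conj hQ]
    refine blk_ext fun d d' => ?_
    rw [blk_mul_right, blk_mul_left, Matrix.mul_assoc, ← (hc d d').eq, ← Matrix.mul_assoc, hQ2]
  rw [h]
  exact hM.mul_mul_conjTranspose_same _

theorem trace_eq_ptr (F : Matrix (X × D) (X × D) ℂ) : F.trace = (ptr F).trace := by
  simp only [Matrix.trace, Matrix.diag, ptr, Matrix.sum_apply, blk, Fintype.sum_prod_type]

theorem ptr_mul_left (Q : Matrix X X ℂ) (F : Matrix (X × D) (X × D) ℂ) :
    ptr ((Q ⊗ₖ (1 : Matrix D D ℂ)) * F) = Q * ptr F := by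
  simp only [ptr, blk_mul_left, Matrix.mul_sum]

/-- If the marginal of a positive operator vanishes, so does the operator. -/
theorem blk_eq_zero {Q : Matrix X X ℂ} (hQ : Q.IsHermitian) (hQ2 : Q * Q = Q)
    {F : Matrix (X × D) (X × D) ℂ} (hF : F.PosSemidef) (hc : ∀ d d', Commute Q (blk F d d'))
    (h0 : Q * ptr F = 0) (d d' : D) : Q * blk F d d' = 0 := by
  have h1 := proj_posSemidef hQ hQ2 hF hc
  have h2 : ((Q ⊗ₖ (1 : Matrix D D ℂ)) * F).trace = 0 := by
    rw [trace_eq_ptr, ptr_mul_left, h0, trace_zero]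
  have h3 := h1.trace_eq_zero_iff.mp h2
  rw [← blk_mul_left, h3]
  rfl

/-- Eigenvalues on a projection. -/
theorem lam_nonneg {Q : Matrix X X ℂ} (hQ : Q.IsHermitian) (hQ2 : Q * Q = Q) (h0 : Q ≠ 0)
    {ν : Matrix X X ℂ} (hν : ν.PosSemidef) {l : ℝ} (h : ν * Q = (l : ℂ) • Q) : 0 ≤ l := by
  have hQp : Q.PosSemidef := by
    have h1 := posSemidef_conjTranspose_mul_self Q
    rwa [hQ.eq, hQ2] at h1
  have h1 : 0 ≤ (Q * ν * Q).trace := by
    have h2 := hν.mul_mul_conjTranspose_same Q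
    rw [hQ.eq] at h2
    exact h2.trace_nonneg
  have h2 : Q * ν * Q = (l : ℂ) • Q := by
    rw [Matrix.mul_assoc, h, Matrix.mul_smul, hQ2]
  rw [h2, trace_smul, smul_eq_mul] at h1
  have h3 : Q.trace ≠ 0 := fun h4 => h0 (hQp.trace_eq_zero_iff.mp h4)
  have h4 : 0 ≤ Q.trace := hQp.trace_nonneg
  obtain ⟨t, ht⟩ : ∃ t : ℝ, Q.trace = (t : ℂ) := ⟨Q.trace.re, by
    rw [Complex.le_def] at h4
    apply Complex.ext
    · simp
    · simpa using h4.2.symm⟩
  rw [ht] at h1 h3 h4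
  have h5 : 0 ≤ l * t := by exact_mod_cast h1
  have h6 : 0 ≤ t := by exact_mod_cast h4
  have h7 : t ≠ 0 := by exact_mod_cast h3
  exact nonneg_of_mul_nonneg_left h5 (lt_of_le_of_ne h6 (Ne.symm h7))

/-- The coefficients on one joint eigenspace. -/
theorem exists_coeff {n : ℕ} (lam : (Fin n → Bool) → ℝ) (h0 : ∀ τ, 0 ≤ lam τ) (hd : Dec lam) :
    ∃ c : (Fin n → Bool) → (Fin n → Bool) → ℝ, (∀ τ τ', 0 ≤ c τ τ') ∧
      (∀ τ τ', (∃ i, τ i = true ∧ τ' i = true) → c τ τ' = 0) ∧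
      (∀ τ, lam τ ≠ 0 → ∑ τ', c τ τ' * lam τ' = 1) ∧
      ∀ τ', lam τ' ≠ 0 → ∑ τ, c τ τ' * lam τ = 1 := by
  obtain ⟨W, hW1, hW2, hW3, hW4⟩ := couple n lam lam h0 h0 hd hd rfl
  have hz1 : ∀ τ τ', lam τ = 0 → W τ τ' = 0 := by
    intro τ τ' h
    have h1 := hW3 τ
    rw [h] at h1
    exact (Finset.sum_eq_zero_iff_of_nonneg fun τ' _ => hW1 τ τ').mp h1 τ' (Finset.mem_univ _)
  have hz2 : ∀ τ τ', lam τ' = 0 → W τ τ' = 0 := by
    intro τ τ' h
    have h1 := hW4 τ'
    rw [h] at h1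
    exact (Finset.sum_eq_zero_iff_of_nonneg fun τ _ => hW1 τ τ').mp h1 τ (Finset.mem_univ _)
  refine ⟨fun τ τ' => W τ τ' / (lam τ * lam τ'), fun τ τ' => div_nonneg (hW1 _ _)
    (mul_nonneg (h0 _) (h0 _)), fun τ τ' h => ?_, fun τ h => ?_, fun τ' h => ?_⟩
  · show W τ τ' / _ = 0
    rw [hW2 τ τ' h, zero_div]
  · have h1 : ∀ τ', W τ τ' / (lam τ * lam τ') * lam τ' = W τ τ' / lam τ := by
      intro τ'
      by_cases h2 : lam τ' = 0
      · rw [h2, hz2 τ τ' h2]
        simp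
      · field_simp
    simp only [h1]
    rw [← Finset.sum_div, hW3, div_self h]
  · have h1 : ∀ τ, W τ τ' / (lam τ * lam τ') * lam τ = W τ τ' / lam τ' := by
      intro τ
      by_cases h2 : lam τ = 0
      · rw [h2, hz1 τ τ' h2]
        simp
      · field_simp
    simp only [h1]
    rw [← Finset.sum_div, hW4, div_self h]

/-- The extension of the filtered copies to a second copy of Bob's system. -/
theorem exists_ext {n : ℕ} {S : Matrix (A × B) (A × B) ℂ} {α : ℝ} (hS : S.PosSemidef)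
    (hα : 0 ≤ α) (hS' : ((α : ℂ) • 1 - S).PosSemidef) (V : Matrix D (Fin n → B) ℂ)
    (hC : ∀ σ τ d d', Commute (ptr (ft V (flag S α σ))) (blk (ft V (flag S α τ)) d d')) :
    ∃ Ω : Matrix ((Fin n → A) × (D × D)) ((Fin n → A) × (D × D)) ℂ, Ω.PosSemidef ∧
      (∀ x d x' d', ∑ e, Ω (x, (d, e)) (x', (d', e)) =
        ft V (∑ τ, flag S α τ) (x, d) (x', d')) ∧
      ∀ x e x' e', ∑ d, Ω (x, (d, e)) (x', (d, e')) =
        ft V (∑ τ, flag S α τ) (x, e) (x', e') := by
  classical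
  obtain ⟨F, hF⟩ : ∃ F : (Fin n → Bool) → Matrix ((Fin n → A) × D) ((Fin n → A) × D) ℂ,
      F = fun τ => ft V (flag S α τ) := ⟨_, rfl⟩
  have hFp : ∀ τ, (F τ).PosSemidef := by
    intro τ
    rw [hF]
    exact ft_posSemidef V (flag_posSemidef hS hα τ)
  have hC' : ∀ σ τ d d', Commute (ptr (F σ)) (blk (F τ) d d') := by
    rw [hF]
    exact hC
  have hνp : ∀ σ, (ptr (F σ)).PosSemidef := fun σ => ptr_posSemidef (hFp σ)
  have hνc : ∀ σ τ, Commute (ptr (F σ)) (ptr (F τ)) := by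
    intro σ τ
    exact Commute.sum_right _ _ _ fun d _ => hC' σ τ d d
  obtain ⟨I, iI, Q, lam, hQ1, hQ2, hQ3, hQ4, hQ5⟩ := joint_spec (fun σ => ptr (F σ))
    (fun σ => (hνp σ).1) hνc
  have hQF : ∀ s τ d d', Commute (Q s) (blk (F τ) d d') := fun s τ d d' =>
    (hQ5 (blk (F τ) d d') (fun σ => (hC' σ τ d d').symm) s).symm
  have hQν : ∀ s σ, Q s * ptr (F σ) = (lam σ s : ℂ) • Q s := by
    intro s σ
    rw [← hQ4 σ s]
    exact (hQ5 (ptr (F σ)) (fun σ' => hνc σ σ') s).symm.eq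
  -- the coefficients
  have hcoef : ∀ s, ∃ c : (Fin n → Bool) → (Fin n → Bool) → ℝ, (∀ τ τ', 0 ≤ c τ τ') ∧
      (∀ τ τ', (∃ i, τ i = true ∧ τ' i = true) → c τ τ' = 0) ∧
      (∀ τ d d', ((∑ τ', c τ τ' * lam τ' s : ℝ) : ℂ) • (Q s * blk (F τ) d d') =
        Q s * blk (F τ) d d') ∧
      ∀ τ' d d', ((∑ τ, c τ τ' * lam τ s : ℝ) : ℂ) • (Q s * blk (F τ') d d') =
        Q s * blk (F τ') d d' := by
    intro s
    by_cases h0 : Q s = 0
    · exact ⟨fun _ _ => 0, fun _ _ => le_rfl, fun _ _ _ => rfl, fun τ d d' => by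
        rw [h0]; simp, fun τ d d' => by rw [h0]; simp⟩
    · have hl : ∀ τ, 0 ≤ lam τ s := fun τ => lam_nonneg (hQ1 s) (hQ2 s) h0 (hνp τ) (hQ4 τ s)
      have hd : Dec fun τ => lam τ s := by
        intro τ i
        have h1 : (ptr (F (Function.update τ i false)) -
            ptr (F (Function.update τ i true))).PosSemidef := by
          rw [hF, ← ptr_sub, ← ft_sub]
          exact ptr_posSemidef (ft_posSemidef V (flag_update hS hα hS' τ i))
        have h2 := lam_nonneg (hQ1 s) (hQ2 s) h0 h1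
          (l := lam (Function.update τ i false) s - lam (Function.update τ i true) s) (by
            rw [Matrix.sub_mul, hQ4, hQ4, ← sub_smul]
            push_cast
            rfl)
        exact sub_nonneg.mp h2
      obtain ⟨c, hc1, hc2, hc3, hc4⟩ := exists_coeff (fun τ => lam τ s) hl hd
      have hzero : ∀ τ d d', lam τ s = 0 → Q s * blk (F τ) d d' = 0 := by
        intro τ d d' h
        refine blk_eq_zero (hQ1 s) (hQ2 s) (hFp τ) (fun d d' => hQF s τ d d') ?_ d d'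
        rw [hQν, h]
        simp
      refine ⟨c, hc1, hc2, fun τ d d' => ?_, fun τ d d' => ?_⟩
      · by_cases h : lam τ s = 0
        · rw [hzero τ d d' h, smul_zero]
        · rw [hc3 τ h]
          simp
      · by_cases h : lam τ s = 0
        · rw [hzero τ d d' h, smul_zero]
        · rw [hc4 τ h]
          simp
  choose c hc1 hc2 hc3 hc4 using hcoef
  obtain ⟨P, hP⟩ : ∃ P : (Fin n → Bool) → (Fin n → Bool) →
      Matrix ((Fin n → A) × (D × D)) ((Fin n → A) × (D × D)) ℂ, P = fun τ τ' =>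
      Matrix.of fun p q => (blk (F τ) p.2.1 q.2.1 * blk (F τ') p.2.2 q.2.2) p.1 q.1 := ⟨_, rfl⟩
  have hPb : ∀ τ τ' (d d' : D × D), blk (P τ τ') d d' =
      blk (F τ) d.1 d'.1 * blk (F τ') d.2 d'.2 := by
    intro τ τ' d d'
    rw [hP]
    rfl
  refine ⟨∑ s, ∑ τ, ∑ τ', (c s τ τ' : ℂ) • ((Q s ⊗ₖ (1 : Matrix (D × D) (D × D) ℂ)) * P τ τ'),
    ?_, ?_, ?_⟩
  · refine posSemidef_sum _ fun s _ => posSemidef_sum _ fun τ _ => posSemidef_sum _ fun τ' _ => ?_
    by_cases h : ∃ i, τ i = true ∧ τ' i = true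
    · rw [hc2 s τ τ' h]
      simpa using PosSemidef.zero
    · refine PosSemidef.smul ?_ (Complex.zero_le_real.mpr (hc1 s τ τ'))
      refine proj_posSemidef (hQ1 s) (hQ2 s) ?_ ?_
      · rw [hP]
        have h1 := pair_posSemidef hS hα V τ τ' (fun i hi => h ⟨i, hi⟩)
        rw [hF]
        exact h1
      · intro d d'
        rw [hPb]
        exact (hQF s τ _ _).mul_right (hQF s τ' _ _)
  · intro x d x' d'
    have e1 : ∀ e : D, (∑ s, ∑ τ, ∑ τ', (c s τ τ' : ℂ) •
        ((Q s ⊗ₖ (1 : Matrix (D × D) (D × D) ℂ)) * P τ τ')) (x, (d, e)) (x', (d', e)) =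
        ∑ s, ∑ τ, ∑ τ', (c s τ τ' : ℂ) * (Q s * (blk (F τ) d d' * blk (F τ') e e)) x x' := by
      intro e
      simp only [Matrix.sum_apply, Matrix.smul_apply, smul_eq_mul]
      refine Finset.sum_congr rfl fun s _ => Finset.sum_congr rfl fun τ _ =>
        Finset.sum_congr rfl fun τ' _ => ?_
      congr 1
      have h1 := congrFun (congrFun (blk_mul_left (Q s) (P τ τ') (d, e) (d', e)) x) x'
      rw [hPb] at h1
      exact h1
    simp only [e1]
    rw [Finset.sum_comm]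
    have e2 : ∀ s, ∑ e : D, ∑ τ, ∑ τ', (c s τ τ' : ℂ) *
        (Q s * (blk (F τ) d d' * blk (F τ') e e)) x x' =
        ∑ τ, (Q s * blk (F τ) d d') x x' := by
      intro s
      rw [Finset.sum_comm]
      refine Finset.sum_congr rfl fun τ _ => ?_
      rw [Finset.sum_comm]
      have e3 : ∀ τ', ∑ e : D, (c s τ τ' : ℂ) *
          (Q s * (blk (F τ) d d' * blk (F τ') e e)) x x' =
          ((c s τ τ' * lam τ' s : ℝ) : ℂ) * (Q s * blk (F τ) d d') x x' := by
        intro τ'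
        rw [← Finset.mul_sum, ← Matrix.sum_apply, ← Matrix.mul_sum, ← Matrix.mul_sum]
        have e4 : Q s * (blk (F τ) d d' * ∑ e, blk (F τ') e e) =
            (lam τ' s : ℂ) • (Q s * blk (F τ) d d') := by
          show Q s * (blk (F τ) d d' * ptr (F τ')) = _
          rw [← (hC' τ' τ d d').eq, ← Matrix.mul_assoc, hQν, Matrix.smul_mul]
        rw [e4, Matrix.smul_apply, smul_eq_mul]
        push_cast
        ring
      simp only [e3]
      rw [← Finset.sum_mul, ← Complex.ofReal_sum]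
      have h5 := congrFun (congrFun (hc3 s τ d d') x) x'
      rw [Matrix.smul_apply, smul_eq_mul] at h5
      exact h5
    simp only [e2]
    rw [Finset.sum_comm, ft_sum, Matrix.sum_apply]
    refine Finset.sum_congr rfl fun τ _ => ?_
    rw [← Matrix.sum_apply, ← Matrix.sum_mul, hQ3, Matrix.one_mul, hF]
    rfl
  · intro x e x' e'
    have e1 : ∀ d : D, (∑ s, ∑ τ, ∑ τ', (c s τ τ' : ℂ) •
        ((Q s ⊗ₖ (1 : Matrix (D × D) (D × D) ℂ)) * P τ τ')) (x, (d, e)) (x', (d, e')) =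
        ∑ s, ∑ τ, ∑ τ', (c s τ τ' : ℂ) * (Q s * (blk (F τ) d d * blk (F τ') e e')) x x' := by
      intro d
      simp only [Matrix.sum_apply, Matrix.smul_apply, smul_eq_mul]
      refine Finset.sum_congr rfl fun s _ => Finset.sum_congr rfl fun τ _ =>
        Finset.sum_congr rfl fun τ' _ => ?_
      congr 1
      have h1 := congrFun (congrFun (blk_mul_left (Q s) (P τ τ') (d, e) (d, e')) x) x'
      rw [hPb] at h1
      exact h1
    simp only [e1]
    rw [Finset.sum_comm]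
    have e2 : ∀ s, ∑ d : D, ∑ τ, ∑ τ', (c s τ τ' : ℂ) *
        (Q s * (blk (F τ) d d * blk (F τ') e e')) x x' =
        ∑ τ', (Q s * blk (F τ') e e') x x' := by
      intro s
      have e3 : ∀ τ τ', ∑ d : D, (c s τ τ' : ℂ) *
          (Q s * (blk (F τ) d d * blk (F τ') e e')) x x' =
          ((c s τ τ' * lam τ s : ℝ) : ℂ) * (Q s * blk (F τ') e e') x x' := by
        intro τ τ'
        rw [← Finset.mul_sum, ← Matrix.sum_apply, ← Matrix.mul_sum, ← Matrix.sum_mul]
        have e4 : Q s * ((∑ d, blk (F τ) d d) * blk (F τ') e e') =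
            (lam τ s : ℂ) • (Q s * blk (F τ') e e') := by
          show Q s * (ptr (F τ) * blk (F τ') e e') = _
          rw [← Matrix.mul_assoc, hQν, Matrix.smul_mul]
        rw [e4, Matrix.smul_apply, smul_eq_mul]
        push_cast
        ring
      rw [Finset.sum_comm]
      have e5 : ∀ τ, ∑ d : D, ∑ τ', (c s τ τ' : ℂ) *
          (Q s * (blk (F τ) d d * blk (F τ') e e')) x x' =
          ∑ τ', ((c s τ τ' * lam τ s : ℝ) : ℂ) * (Q s * blk (F τ') e e') x x' := by
        intro τ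
        rw [Finset.sum_comm]
        exact Finset.sum_congr rfl fun τ' _ => e3 τ τ'
      simp only [e5]
      rw [Finset.sum_comm]
      refine Finset.sum_congr rfl fun τ' _ => ?_
      rw [← Finset.sum_mul, ← Complex.ofReal_sum]
      have h5 := congrFun (congrFun (hc4 s τ' e e') x) x'
      rw [Matrix.smul_apply, smul_eq_mul] at h5
      exact h5
    simp only [e2]
    rw [Finset.sum_comm, ft_sum, Matrix.sum_apply]
    refine Finset.sum_congr rfl fun τ _ => ?_
    rw [← Matrix.sum_apply, ← Matrix.sum_mul, hQ3, Matrix.one_mul, hF]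
    rfl

end H23

end Vale.Agent.P372
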