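import Vale.Agent.P372.H23.Unsand

open Matrix Kronecker
open scoped ComplexOrder MatrixOrder

set_option linter.unusedSectionVars false

namespace Vale.Agent.P372

namespace H23

variable {A B : Type} [Fintype A] [DecidableEq A] [Fintype B] [DecidableEq B]

theorem l12_posSemidef {M : Matrix (A × B) (A × B) ℂ} (hM : M.PosSemidef) :
    (l12 M).PosSemidef :=
  BF.ext_posSemidef (Z := A × B × B) (Y := B) hM (fun p => (p.1, p.2.1)) (fun p => p.2.2)

theorem l13_posSemidef {M : Matrix (A × B) (A × B) ℂ} (hM : M.PosSemidef) :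
    (l13 M).PosSemidef :=
  BF.ext_posSemidef (Z := A × B × B) (Y := B) hM (fun p => (p.1, p.2.2)) (fun p => p.2.1)

theorem l13_one : l13 (1 : Matrix (A × B) (A × B) ℂ) = 1 := by
  ext p q
  obtain ⟨a, b, c⟩ := p
  obtain ⟨a', b', c'⟩ := q
  simp only [l13, Matrix.one_apply, Prod.mk.injEq]
  by_cases h1 : a = a' <;> by_cases h2 : b = b' <;> by_cases h3 : c = c' <;> simp [h1, h2, h3]

theorem l12_one : l12 (1 : Matrix (A × B) (A × B) ℂ) = 1 := by
  ext p q
  obtain ⟨a, b, c⟩ := p
  obtain ⟨a', b', c'⟩ := q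
  simp only [l12, Matrix.one_apply, Prod.mk.injEq]
  by_cases h1 : a = a' <;> by_cases h2 : b = b' <;> by_cases h3 : c = c' <;> simp [h1, h2, h3]

theorem l13_sub (M N : Matrix (A × B) (A × B) ℂ) : l13 (M - N) = l13 M - l13 N := by
  ext p q
  simp only [l13, Matrix.sub_apply, sub_mul]

theorem l12_sub (M N : Matrix (A × B) (A × B) ℂ) : l12 (M - N) = l12 M - l12 N := by
  ext p q
  simp only [l12, Matrix.sub_apply, sub_mul]

theorem trace_m1 (M : Matrix (A × B × B) (A × B × B) ℂ) : M.trace = (m1 M).trace := by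
  simp only [Matrix.trace, Matrix.diag, m1, Fintype.sum_prod_type]

theorem trace_m2 (M : Matrix (A × B × B) (A × B × B) ℂ) : M.trace = (m2 M).trace := by
  simp only [Matrix.trace, Matrix.diag, m2, Fintype.sum_prod_type]
  refine Finset.sum_congr rfl fun a _ => ?_
  rw [Finset.sum_comm]

/-- A positive operator compressed to zero. -/
theorem mul_eq_zero_of_conj {Z : Type} [Fintype Z] [DecidableEq Z] {M Q : Matrix Z Z ℂ}
    (hM : M.PosSemidef) (h : Q * M * Qᴴ = 0) : Q * M = 0 := by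
  obtain ⟨C, rfl⟩ := exists_eq_conjTranspose_mul_self hM
  have h1 : (Q * Cᴴ) * (Q * Cᴴ)ᴴ = 0 := by
    rw [conjTranspose_mul, conjTranspose_conjTranspose, ← h]
    simp only [Matrix.mul_assoc]
  have h2 : Q * Cᴴ = 0 := self_mul_conjTranspose_eq_zero.mp h1
  rw [← Matrix.mul_assoc, h2, Matrix.zero_mul]

theorem pr_conj {Pi : Matrix B B ℂ} (h : Piᴴ = Pi) : (pr A Pi)ᴴ = pr A Pi := by
  rw [pr, conjTranspose_kronecker, conjTranspose_one, h]

theorem pr_mul {Pi : Matrix B B ℂ} (h : Pi * Pi = Pi) : pr A Pi * pr A Pi = pr A Pi := by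
  rw [pr, ← mul_kronecker_mul, Matrix.one_mul, h]

theorem m1_l13_pr (Pi : Matrix B B ℂ) :
    m1 (l13 (pr A Pi)) = Pi.trace • (1 : Matrix (A × B) (A × B) ℂ) := by
  ext p q
  obtain ⟨a, b⟩ := p
  obtain ⟨a', b'⟩ := q
  simp only [m1, l13, pr_apply, Matrix.smul_apply, Matrix.one_apply, Prod.mk.injEq, smul_eq_mul,
    Matrix.trace, Matrix.diag]
  by_cases h1 : a = a' <;> by_cases h2 : b = b' <;> simp [h1, h2]

theorem m2_l12_pr (Pi : Matrix B B ℂ) :
    m2 (l12 (pr A Pi)) = Pi.trace • (1 : Matrix (A × B) (A × B) ℂ) := by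
  ext p q
  obtain ⟨a, b⟩ := p
  obtain ⟨a', b'⟩ := q
  simp only [m2, l12, pr_apply, Matrix.smul_apply, Matrix.one_apply, Prod.mk.injEq, smul_eq_mul,
    Matrix.trace, Matrix.diag]
  by_cases h1 : a = a' <;> by_cases h2 : b = b' <;> simp [h1, h2]

theorem supp_l13 {Ω : Matrix (A × B × B) (A × B × B) ℂ} (hΩ : Ω.PosSemidef)
    {P S : Matrix (A × B) (A × B) ℂ} (hP : Pᴴ = P) (h : m2 Ω = S) (hS : P * S = S) :
    l13 P * Ω = Ω := by
  have h1 : (1 - l13 P)ᴴ = 1 - l13 P := by
    rw [conjTranspose_sub, conjTranspose_one, l13_conj, hP]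
  have h2 := hΩ.mul_mul_conjTranspose_same (1 - l13 P)
  have h3 : ((1 - l13 P) * Ω * (1 - l13 P)ᴴ).trace = 0 := by
    rw [h1, trace_m2, ← l13_one, ← l13_sub, m2_l13, h, Matrix.sub_mul, Matrix.one_mul, hS,
      sub_self, Matrix.zero_mul, Matrix.trace_zero]
  have h4 := mul_eq_zero_of_conj hΩ (h2.trace_eq_zero_iff.mp h3)
  rw [Matrix.sub_mul, Matrix.one_mul, sub_eq_zero] at h4
  exact h4.symm

theorem supp_l12 {Ω : Matrix (A × B × B) (A × B × B) ℂ} (hΩ : Ω.PosSemidef)
    {P S : Matrix (A × B) (A × B) ℂ} (hP : Pᴴ = P) (h : m1 Ω = S) (hS : P * S = S) :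
    l12 P * Ω = Ω := by
  have h1 : (1 - l12 P)ᴴ = 1 - l12 P := by
    rw [conjTranspose_sub, conjTranspose_one, l12_conj, hP]
  have h2 := hΩ.mul_mul_conjTranspose_same (1 - l12 P)
  have h3 : ((1 - l12 P) * Ω * (1 - l12 P)ᴴ).trace = 0 := by
    rw [h1, trace_m1, ← l12_one, ← l12_sub, m1_l12, h, Matrix.sub_mul, Matrix.one_mul, hS,
      sub_self, Matrix.zero_mul, Matrix.trace_zero]
  have h4 := mul_eq_zero_of_conj hΩ (h2.trace_eq_zero_iff.mp h3)
  rw [Matrix.sub_mul, Matrix.one_mul, sub_eq_zero] at h4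
  exact h4.symm

/-- The Schur complement of a compression. -/
theorem schur {R P : Matrix (A × B) (A × B) ℂ} {lo : ℝ} (hlo : 0 < lo)
    (hR : (R - (lo : ℂ) • 1).PosSemidef) (hP1 : Pᴴ = P) (hP2 : P * P = P) :
    ∃ G : Matrix (A × B) (A × B) ℂ, Gᴴ = G ∧ G * P = P * G ∧ P * R * P * G = P ∧
      G * (P * R * P) = P ∧ (R - R * P * G * R).PosSemidef ∧ P * (R - R * P * G * R) = 0 := by
  have hRh : Rᴴ = R := by
    have h1 := hR.1.eq
    rw [conjTranspose_sub, conjTranspose_smul, conjTranspose_one, Complex.star_def,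
      Complex.conj_ofReal] at h1
    exact sub_left_injective h1
  have hRp : R.PosSemidef := by
    have h4 : R = (R - (lo : ℂ) • 1) + (lo : ℂ) • (1 : Matrix _ _ ℂ) := by abel
    rw [h4]
    exact hR.add (PosSemidef.one.smul (by exact_mod_cast hlo.le))
  obtain ⟨T, hT⟩ : ∃ T, T = P * R * P + (lo : ℂ) • (1 - P) := ⟨_, rfl⟩
  have hTpd : T.PosDef := by
    have h1 : T = (lo : ℂ) • (1 : Matrix (A × B) (A × B) ℂ) + P * (R - (lo : ℂ) • 1) * Pᴴ := by
      rw [hT, hP1, Matrix.mul_sub, Matrix.sub_mul, Matrix.mul_smul, Matrix.smul_mul,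
        Matrix.mul_one, hP2, smul_sub]
      abel
    rw [h1]
    exact (PosDef.one.smul (by exact_mod_cast hlo)).add_posSemidef
      (hR.mul_mul_conjTranspose_same P)
  have hTG : T * T⁻¹ = 1 := Matrix.mul_nonsing_inv _
    ((Matrix.isUnit_iff_isUnit_det _).mp hTpd.isUnit)
  have hGT : T⁻¹ * T = 1 := mul_eq_one_comm.mp hTG
  have hGh : (T⁻¹)ᴴ = T⁻¹ := hTpd.inv.1.eq
  obtain ⟨G, hG⟩ : ∃ G, G = T⁻¹ := ⟨_, rfl⟩
  rw [← hG] at hTG hGT hGh
  have hPT : P * T = P * R * P := by
    rw [hT, Matrix.mul_add, Matrix.mul_smul, Matrix.mul_sub, Matrix.mul_one, hP2, sub_self,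
      smul_zero, add_zero, ← Matrix.mul_assoc, ← Matrix.mul_assoc, hP2]
  have hTP : T * P = P * R * P := by
    rw [hT, Matrix.add_mul, Matrix.smul_mul, Matrix.sub_mul, Matrix.one_mul, hP2, sub_self,
      smul_zero, add_zero, Matrix.mul_assoc, hP2]
  have hGP : G * P = P * G := by
    calc G * P = G * P * (T * G) := by rw [hTG, Matrix.mul_one]
      _ = G * (P * T) * G := by simp only [Matrix.mul_assoc]
      _ = G * (T * P) * G := by rw [hPT, hTP]
      _ = (G * T) * P * G := by simp only [Matrix.mul_assoc]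
      _ = P * G := by rw [hGT, Matrix.one_mul]
  have hSG : P * R * P * G = P := by
    rw [← hPT, Matrix.mul_assoc, hTG, Matrix.mul_one]
  have hGS : G * (P * R * P) = P := by
    rw [← hTP, ← Matrix.mul_assoc, hGT, Matrix.one_mul]
  have hDp : (R - R * P * G * R).PosSemidef := by
    have h1 : R - R * P * G * R = (1 - P * G * R)ᴴ * R * (1 - P * G * R) := by
      have h2 : (1 - P * G * R)ᴴ = 1 - R * (G * P) := by
        rw [conjTranspose_sub, conjTranspose_one, conjTranspose_mul, conjTranspose_mul, hRh,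
          hP1, hGh]
      have h3 : R * (G * P) * R * (P * G * R) = R * P * G * R := by
        calc R * (G * P) * R * (P * G * R) = R * (G * (P * R * P)) * G * R := by
              simp only [Matrix.mul_assoc]
          _ = R * P * G * R := by rw [hGS]
      have h4 : R * (G * P) * R = R * P * G * R := by
        rw [hGP]
        simp only [Matrix.mul_assoc]
      have h5 : R * (P * G * R) = R * P * G * R := by
        simp only [Matrix.mul_assoc]
      have h6 : R * (G * P) * (R * (P * G * R)) = R * P * G * R := by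
        rw [← Matrix.mul_assoc, h3]
      rw [h2, Matrix.sub_mul, Matrix.one_mul, Matrix.mul_sub, Matrix.mul_one, Matrix.sub_mul,
        Matrix.mul_assoc (R * (G * P)) R, h6, h4, h5]
      abel
    rw [h1]
    exact hRp.conjTranspose_mul_mul_same _
  refine ⟨G, hGh, hGP, hSG, hGS, hDp, ?_⟩
  · refine mul_eq_zero_of_conj hDp ?_
    have h6 : P * (R * P * G * R) * P = P * R * P := by
      calc P * (R * P * G * R) * P = P * R * P * G * R * P := by simp only [Matrix.mul_assoc]
        _ = P * R * P := by rw [hSG]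
    rw [hP1, Matrix.mul_sub, Matrix.sub_mul, h6, sub_self]

/-- **Extensions of compressions extend.**  If the compression `P R P` of a positive definite
operator, `P = 1 ⊗ Pi` for a projection `Pi` of Bob, has a symmetric extension, then `R` has one
relative to the filter `Pi`. -/
theorem unsandwich {R : Matrix (A × B) (A × B) ℂ} {lo : ℝ} (hlo : 0 < lo)
    (hR : (R - (lo : ℂ) • 1).PosSemidef) {Pi : Matrix B B ℂ} (h1 : Piᴴ = Pi) (h2 : Pi * Pi = Pi)
    (h0 : Pi.trace ≠ 0) {Ω : Matrix (A × B × B) (A × B × B) ℂ} (hΩ : Ω.PosSemidef)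
    (hm1 : m1 Ω = pr A Pi * R * pr A Pi) (hm2 : m2 Ω = pr A Pi * R * pr A Pi) :
    ∃ K, BF.IsExt R Pi K := by
  have hP1 : (pr A Pi)ᴴ = pr A Pi := pr_conj h1
  have hP2 : pr A Pi * pr A Pi = pr A Pi := pr_mul h2
  obtain ⟨G, hGh, hGP, hSG, hGS, hD, hPD⟩ := schur hlo hR hP1 hP2
  have hRh : Rᴴ = R := by
    have h1 := hR.1.eq
    rw [conjTranspose_sub, conjTranspose_smul, conjTranspose_one, Complex.star_def,
      Complex.conj_ofReal] at h1
    exact sub_left_injective h1
  obtain ⟨P, hP⟩ : ∃ P, P = pr A Pi := ⟨_, rfl⟩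
  have c1 : ∀ X, l13 P * l12 X = l12 X * l13 P := fun X => by rw [hP]; exact l13_pr_comm Pi X
  have c2 : ∀ X, l12 P * l13 X = l13 X * l12 P := fun X => by rw [hP]; exact l12_pr_comm Pi X
  have t1 : m1 (l13 P) = Pi.trace • 1 := by rw [hP]; exact m1_l13_pr Pi
  have t2 : m2 (l12 P) = Pi.trace • 1 := by rw [hP]; exact m2_l12_pr Pi
  have k1 : ∀ M, BF.ctrL M Pi = m1 (l13 P * M * l13 P) := fun M => by
    rw [hP]; exact ctrL_eq_m1 h2 M
  have k2 : ∀ M, BF.ctrM M Pi = m2 (l12 P * M * l12 P) := fun M => by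
    rw [hP]; exact ctrM_eq_m2 h2 M
  rw [← hP] at hP1 hP2 hm1 hm2 hGP hSG hGS hD hPD
  clear hP
  have hPS : P * (P * R * P) = P * R * P := by
    rw [← Matrix.mul_assoc, ← Matrix.mul_assoc, hP2]
  have s13 := supp_l13 hΩ hP1 hm2 hPS
  have s12 := supp_l12 hΩ hP1 hm1 hPS
  have s13' : Ω * l13 P = Ω := by
    have := congrArg conjTranspose s13
    rwa [conjTranspose_mul, l13_conj, hP1, hΩ.1.eq] at this
  have s12' : Ω * l12 P = Ω := by
    have := congrArg conjTranspose s12
    rwa [conjTranspose_mul, l12_conj, hP1, hΩ.1.eq] at this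
  obtain ⟨D, hDe⟩ : ∃ D, D = R - R * P * G * R := ⟨_, rfl⟩
  rw [← hDe] at hD hPD
  have hDP : D * P = 0 := by
    have := congrArg conjTranspose hPD
    rwa [conjTranspose_mul, hP1, hD.1.eq, conjTranspose_zero] at this
  obtain ⟨X, hX⟩ : ∃ X, X = R * P * G := ⟨_, rfl⟩
  have hPX : P * X = P := by
    rw [hX, ← Matrix.mul_assoc, ← Matrix.mul_assoc, hSG]
  have hXP : Xᴴ * P = P := by
    have := congrArg conjTranspose hPX
    rwa [conjTranspose_mul, hP1] at this
  have hXh : Xᴴ = G * P * R := by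
    rw [hX, conjTranspose_mul, conjTranspose_mul, hGh, hP1, hRh, Matrix.mul_assoc]
  have hXSX : X * (P * R * P) * Xᴴ = R * P * G * R := by
    calc X * (P * R * P) * Xᴴ = R * P * (G * (P * R * P)) * (G * P) * R := by
          rw [hXh, hX]
          simp only [Matrix.mul_assoc]
      _ = R * (P * P) * (P * G) * R := by
          rw [hGS, hGP]
          simp only [Matrix.mul_assoc]
      _ = R * (P * P) * G * R := by
          rw [hP2]
          calc R * P * (P * G) * R = R * (P * P) * G * R := by simp only [Matrix.mul_assoc]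
            _ = _ := by rw [hP2]
      _ = _ := by rw [hP2]
  -- the extension
  obtain ⟨K0, hK0⟩ : ∃ K0, K0 = l12 X * (l13 X * Ω * (l13 X)ᴴ) * (l12 X)ᴴ := ⟨_, rfl⟩
  have hK0p : K0.PosSemidef := by
    rw [hK0]
    exact (hΩ.mul_mul_conjTranspose_same _).mul_mul_conjTranspose_same _
  have a1 : m1 (l13 P * K0 * l13 P) = R * P * G * R := by
    have h3 : l13 P * K0 * l13 P = l12 X * Ω * l12 Xᴴ := by
      rw [hK0, l12_conj, l13_conj]
      calc l13 P * (l12 X * (l13 X * Ω * l13 Xᴴ) * l12 Xᴴ) * l13 P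
          = (l13 P * l12 X) * l13 X * Ω * l13 Xᴴ * (l12 Xᴴ * l13 P) := by
            simp only [Matrix.mul_assoc]
        _ = (l12 X * l13 P) * l13 X * Ω * l13 Xᴴ * (l13 P * l12 Xᴴ) := by
            rw [c1, c1]
        _ = l12 X * ((l13 P * l13 X) * Ω * (l13 Xᴴ * l13 P)) * l12 Xᴴ := by
            simp only [Matrix.mul_assoc]
        _ = l12 X * Ω * l12 Xᴴ := by
            rw [l13_mul, l13_mul, hPX, hXP, s13, s13']
    rw [h3, m1_l12, hm1, hXSX]
  have a2 : m2 (l12 P * K0 * l12 P) = R * P * G * R := by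
    have h3 : l12 P * K0 * l12 P = l13 X * Ω * l13 Xᴴ := by
      rw [hK0, l12_conj, l13_conj]
      calc l12 P * (l12 X * (l13 X * Ω * l13 Xᴴ) * l12 Xᴴ) * l12 P
          = (l12 P * l12 X) * l13 X * Ω * l13 Xᴴ * (l12 Xᴴ * l12 P) := by
            simp only [Matrix.mul_assoc]
        _ = l12 P * l13 X * Ω * (l13 Xᴴ * l12 P) := by
            rw [l12_mul, l12_mul, hPX, hXP]
            simp only [Matrix.mul_assoc]
        _ = (l13 X * l12 P) * Ω * (l12 P * l13 Xᴴ) := by
            rw [c2, c2]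
        _ = l13 X * (l12 P * Ω * l12 P) * l13 Xᴴ := by
            simp only [Matrix.mul_assoc]
        _ = l13 X * Ω * l13 Xᴴ := by
            rw [s12, s12']
    rw [h3, m2_l13, hm2, hXSX]
  have hPh13 : (l13 P)ᴴ = l13 P := by rw [l13_conj, hP1]
  have hPh12 : (l12 P)ᴴ = l12 P := by rw [l12_conj, hP1]
  have hP13 : l13 P * l13 P = l13 P := by rw [l13_mul, hP2]
  have hP12 : l12 P * l12 P = l12 P := by rw [l12_mul, hP2]
  have q1 : (l12 D * l13 P).PosSemidef := by
    have h3 : l12 D * l13 P = l13 P * l12 D * (l13 P)ᴴ := by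
      rw [hPh13, c1, Matrix.mul_assoc, hP13]
    rw [h3]
    exact (l12_posSemidef hD).mul_mul_conjTranspose_same _
  have q2 : (l13 D * l12 P).PosSemidef := by
    have h3 : l13 D * l12 P = l12 P * l13 D * (l12 P)ᴴ := by
      rw [hPh12, c2, Matrix.mul_assoc, hP12]
    rw [h3]
    exact (l13_posSemidef hD).mul_mul_conjTranspose_same _
  -- contractions of the correction
  have b1 : m1 (l13 P * (l12 D * l13 P) * l13 P) = Pi.trace • D := by
    have h3 : l13 P * (l12 D * l13 P) * l13 P = l12 D * l13 P := by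
      calc l13 P * (l12 D * l13 P) * l13 P = (l13 P * l12 D) * (l13 P * l13 P) := by
            simp only [Matrix.mul_assoc]
        _ = l12 D * (l13 P * l13 P) := by rw [hP13, c1, Matrix.mul_assoc, hP13]
        _ = _ := by rw [hP13]
    rw [h3, m1_left, t1, Matrix.mul_smul, Matrix.mul_one]
  have b2 : m1 (l13 P * (l13 D * l12 P) * l13 P) = 0 := by
    have h3 : l13 P * (l13 D * l12 P) * l13 P = 0 := by
      calc l13 P * (l13 D * l12 P) * l13 P = (l13 P * l13 D) * l12 P * l13 P := by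
            simp only [Matrix.mul_assoc]
        _ = 0 := by
            rw [l13_mul, hPD]
            have : l13 (0 : Matrix (A × B) (A × B) ℂ) = 0 := by
              ext p q
              simp [l13]
            rw [this, Matrix.zero_mul, Matrix.zero_mul]
    rw [h3]
    ext p q
    simp [m1]
  have b3 : m2 (l12 P * (l12 D * l13 P) * l12 P) = 0 := by
    have h3 : l12 P * (l12 D * l13 P) * l12 P = 0 := by
      calc l12 P * (l12 D * l13 P) * l12 P = (l12 P * l12 D) * l13 P * l12 P := by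
            simp only [Matrix.mul_assoc]
        _ = 0 := by
            rw [l12_mul, hPD]
            have : l12 (0 : Matrix (A × B) (A × B) ℂ) = 0 := by
              ext p q
              simp [l12]
            rw [this, Matrix.zero_mul, Matrix.zero_mul]
    rw [h3]
    ext p q
    simp [m2]
  have b4 : m2 (l12 P * (l13 D * l12 P) * l12 P) = Pi.trace • D := by
    have h3 : l12 P * (l13 D * l12 P) * l12 P = l13 D * l12 P := by
      calc l12 P * (l13 D * l12 P) * l12 P = (l12 P * l13 D) * (l12 P * l12 P) := by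
            simp only [Matrix.mul_assoc]
        _ = l13 D * (l12 P * l12 P) := by rw [hP12, c2, Matrix.mul_assoc, hP12]
        _ = _ := by rw [hP12]
    rw [h3, m2_left, t2, Matrix.mul_smul, Matrix.mul_one]
  have hPip : Pi.PosSemidef := by
    have h3 : Pi = Piᴴ * Pi := by rw [h1, h2]
    rw [h3]
    exact posSemidef_conjTranspose_mul_self _
  have hτ : 0 ≤ (Pi.trace)⁻¹ := by
    have h3 := hPip.trace_nonneg
    obtain ⟨r, hr⟩ : ∃ r : ℝ, Pi.trace = (r : ℂ) := ⟨Pi.trace.re, by
      rw [Complex.le_def] at h3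
      apply Complex.ext
      · simp
      · simpa using h3.2.symm⟩
    rw [hr] at h3 ⊢
    have h4 : 0 ≤ r := by exact_mod_cast h3
    rw [← Complex.ofReal_inv]
    exact_mod_cast inv_nonneg.mpr h4
  have hlin1 : ∀ (U V W : Matrix (A × B × B) (A × B × B) ℂ) (x : ℂ),
      m1 (l13 P * (U + x • (V + W)) * l13 P) = m1 (l13 P * U * l13 P) +
        x • (m1 (l13 P * V * l13 P) + m1 (l13 P * W * l13 P)) := by
    intro U V W x
    rw [Matrix.mul_add, Matrix.add_mul, Matrix.mul_smul, Matrix.smul_mul, Matrix.mul_add,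
      Matrix.add_mul]
    ext p q
    simp only [m1, Matrix.add_apply, Matrix.smul_apply, smul_eq_mul, Finset.sum_add_distrib,
      Finset.mul_sum, mul_add]
  have hlin2 : ∀ (U V W : Matrix (A × B × B) (A × B × B) ℂ) (x : ℂ),
      m2 (l12 P * (U + x • (V + W)) * l12 P) = m2 (l12 P * U * l12 P) +
        x • (m2 (l12 P * V * l12 P) + m2 (l12 P * W * l12 P)) := by
    intro U V W x
    rw [Matrix.mul_add, Matrix.add_mul, Matrix.mul_smul, Matrix.smul_mul, Matrix.mul_add,
      Matrix.add_mul]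
    ext p q
    simp only [m2, Matrix.add_apply, Matrix.smul_apply, smul_eq_mul, Finset.sum_add_distrib,
      Finset.mul_sum, mul_add]
  refine ⟨K0 + (Pi.trace)⁻¹ • (l12 D * l13 P + l13 D * l12 P), hK0p.add ((q1.add q2).smul hτ),
    ?_, ?_⟩
  · intro a b a' b'
    have h3 : BF.ctrL (K0 + (Pi.trace)⁻¹ • (l12 D * l13 P + l13 D * l12 P)) Pi = R := by
      rw [k1, hlin1, a1, b1, b2, add_zero, smul_smul, inv_mul_cancel₀ h0, one_smul, hDe]
      abel
    exact congrFun (congrFun h3 (a, b)) (a', b')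
  · intro a b a' b'
    have h3 : BF.ctrM (K0 + (Pi.trace)⁻¹ • (l12 D * l13 P + l13 D * l12 P)) Pi = R := by
      rw [k2, hlin2, a2, b3, b4, zero_add, smul_smul, inv_mul_cancel₀ h0, one_smul, hDe]
      abel
    exact congrFun (congrFun h3 (a, b)) (a', b')

end H23

end Vale.Agent.P372
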