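import Vale.Agent.P372.H23.Code

open Matrix Kronecker
open scoped ComplexOrder MatrixOrder

set_option linter.unusedSectionVars false

namespace Vale.Agent.P372

namespace H23

variable {A C : Type} [Fintype A] [DecidableEq A] [Fintype C] [DecidableEq C]

/-- The swap. -/
def sw (A : Type) [DecidableEq A] : Matrix (A × A) (A × A) ℂ :=
  fun p q => if p.1 = q.2 ∧ p.2 = q.1 then 1 else 0

/-- Operator `M` on the first systems of the two parties, `N` on the second ones. -/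
def kr (M : Matrix (A × A) (A × A) ℂ) (N : Matrix (C × C) (C × C) ℂ) :
    Matrix ((A × C) × (A × C)) ((A × C) × (A × C)) ℂ :=
  fun p q => M (p.1.1, p.2.1) (q.1.1, q.2.1) * N (p.1.2, p.2.2) (q.1.2, q.2.2)

theorem kr_eq (M : Matrix (A × A) (A × A) ℂ) (N : Matrix (C × C) (C × C) ℂ) :
    kr M N = (M ⊗ₖ N).submatrix (Equiv.prodProdProdComm A C A C)
      (Equiv.prodProdProdComm A C A C) := by
  ext p q
  rfl

theorem kr_mul (M M' : Matrix (A × A) (A × A) ℂ) (N N' : Matrix (C × C) (C × C) ℂ) :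
    kr M N * kr M' N' = kr (M * M') (N * N') := by
  rw [kr_eq, kr_eq, kr_eq, submatrix_mul_equiv, mul_kronecker_mul]

theorem kr_one : kr (1 : Matrix (A × A) (A × A) ℂ) (1 : Matrix (C × C) (C × C) ℂ) = 1 := by
  rw [kr_eq, one_kronecker_one]
  exact submatrix_one_equiv _

theorem kr_kron (v v' : Matrix A A ℂ) (w w' : Matrix C C ℂ) :
    (v ⊗ₖ w) ⊗ₖ (v' ⊗ₖ w') = kr (v ⊗ₖ v') (w ⊗ₖ w') := by
  ext p q
  simp only [kroneckerMap_apply, kr]
  ring

theorem ctr_kr (M : Matrix (A × A) (A × A) ℂ) (N : Matrix (C × C) (C × C) ℂ) (v : Matrix A A ℂ)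
    (w : Matrix C C ℂ) : BF.ctr (kr M N) (v ⊗ₖ w) = BF.ctr M v ⊗ₖ BF.ctr N w := by
  ext x x'
  simp only [BF.ctr, kr, kroneckerMap_apply, Fintype.sum_prod_type]
  rw [Finset.sum_mul_sum]
  refine Finset.sum_congr rfl fun a _ => Finset.sum_congr rfl fun c _ => ?_
  rw [Finset.sum_mul_sum]
  refine Finset.sum_congr rfl fun a' _ => Finset.sum_congr rfl fun c' _ => ?_
  ring

/-- Unitary, and scalar or of trace zero. -/
def Loc (v : Matrix A A ℂ) : Prop := vᴴ * v = 1 ∧ (v.trace = 0 ∨ ∃ c : ℂ, v = c • 1)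

theorem ctr_one (v : Matrix A A ℂ) : BF.ctr (1 : Matrix (A × A) (A × A) ℂ) v =
    v.trace • (1 : Matrix A A ℂ) := by
  ext x x'
  simp only [BF.ctr, Matrix.one_apply, Prod.mk.injEq, Matrix.smul_apply, smul_eq_mul,
    Matrix.trace, Matrix.diag]
  by_cases h : x = x'
  · subst h
    simp
  · simp [h]

theorem ctr_sw (v : Matrix A A ℂ) : BF.ctr (sw A) v = v := by
  ext x x'
  simp only [BF.ctr, sw]
  rw [Finset.sum_eq_single x']
  · rw [Finset.sum_eq_single x]
    · simp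
    · intro b _ hb
      rw [if_neg (fun h => hb h.1.symm), zero_mul]
    · simp
  · intro b _ hb
    refine Finset.sum_eq_zero fun b' _ => ?_
    rw [if_neg (fun h => hb h.2), zero_mul]
  · simp

theorem Loc.ctr_one {v : Matrix A A ℂ} (h : Loc v) :
    ∃ r : ℂ, BF.ctr (1 : Matrix (A × A) (A × A) ℂ) v = r • v := by
  rw [H23.ctr_one]
  rcases h with ⟨h1, h2 | ⟨c, h2⟩⟩
  · exact ⟨0, by rw [h2, zero_smul, zero_smul]⟩
  · by_cases hc : c = 0
    · refine ⟨0, ?_⟩
      rw [h2, hc]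
      simp
    · refine ⟨v.trace * c⁻¹, ?_⟩
      rw [h2, smul_smul, mul_assoc, inv_mul_cancel₀ hc, mul_one]

theorem sw_comm (v : Matrix A A ℂ) : Commute (v ⊗ₖ v) (sw A) := by
  show _ * _ = _ * _
  ext p q
  rw [Matrix.mul_apply, Matrix.mul_apply]
  rw [Finset.sum_eq_single (q.2, q.1), Finset.sum_eq_single (p.2, p.1)]
  · simp only [kroneckerMap_apply, sw, and_self, if_true]
    ring
  · intro b _ hb
    simp only [sw]
    rw [if_neg, zero_mul]
    rintro ⟨h1, h2⟩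
    exact hb (Prod.ext h2.symm h1.symm)
  · simp
  · intro b _ hb
    simp only [sw]
    rw [if_neg, mul_zero]
    rintro ⟨h1, h2⟩
    exact hb (Prod.ext h1 h2)
  · simp

/-- Products of two such unitaries. -/
def LocPair (u : Matrix (A × C) (A × C) ℂ) : Prop :=
  ∃ (v : Matrix A A ℂ) (w : Matrix C C ℂ), Loc v ∧ Loc w ∧ u = v ⊗ₖ w

theorem ctr_add_left {X Y : Type} [Fintype X] [Fintype Y] (M N : Matrix (X × Y) (X × Y) ℂ)
    (Q : Matrix Y Y ℂ) : BF.ctr (M + N) Q = BF.ctr M Q + BF.ctr N Q := by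
  ext x x'
  simp only [BF.ctr, Matrix.add_apply, add_mul, Finset.sum_add_distrib]

theorem ctr_smul_left {X Y : Type} [Fintype X] [Fintype Y] (c : ℂ) (M : Matrix (X × Y) (X × Y) ℂ)
    (Q : Matrix Y Y ℂ) : BF.ctr (c • M) Q = c • BF.ctr M Q := by
  ext x x'
  simp only [BF.ctr, Matrix.smul_apply, smul_eq_mul, Finset.mul_sum]
  refine Finset.sum_congr rfl fun y _ => Finset.sum_congr rfl fun y' _ => ?_
  ring

/-- The algebra generated by the two swaps. -/
def sw4 (A C : Type) [DecidableEq A] [DecidableEq C] (s : Fin 4 → ℂ) :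
    Matrix ((A × C) × (A × C)) ((A × C) × (A × C)) ℂ :=
  s 0 • kr 1 1 + s 1 • kr (sw A) 1 + s 2 • kr 1 (sw C) + s 3 • kr (sw A) (sw C)

theorem LocPair.isSite {u : Matrix (A × C) (A × C) ℂ} (h : LocPair u) (s : Fin 4 → ℂ) :
    IsSite (sw4 A C s) u := by
  obtain ⟨v, w, hv, hw, rfl⟩ := h
  obtain ⟨a, ha⟩ := hv.ctr_one
  obtain ⟨c, hc⟩ := hw.ctr_one
  refine ⟨?_, ?_, ?_, ?_⟩
  · rw [conjTranspose_kronecker, ← mul_kronecker_mul, hv.1, hw.1, one_kronecker_one]
  · refine ⟨a * c, ?_⟩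
    rw [← kr_one, ctr_kr, ha, hc, smul_kronecker, kronecker_smul, smul_smul]
  · refine ⟨s 0 * (a * c) + s 1 * c + s 2 * a + s 3, ?_⟩
    rw [sw4, ctr_add_left, ctr_add_left, ctr_add_left, ctr_smul_left, ctr_smul_left,
      ctr_smul_left, ctr_smul_left, ctr_kr, ctr_kr, ctr_kr, ctr_kr, ha, hc, ctr_sw, ctr_sw]
    simp only [smul_kronecker, kronecker_smul, smul_smul, add_smul]
    congr 2
    congr 1
    congr 1
    ring
  · rw [kr_kron]
    have h1 : Commute (kr (v ⊗ₖ v) (w ⊗ₖ w)) (kr (1 : Matrix (A × A) (A × A) ℂ)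
        (1 : Matrix (C × C) (C × C) ℂ)) := by
      rw [kr_one]
      exact Commute.one_right _
    have h2 : Commute (kr (v ⊗ₖ v) (w ⊗ₖ w)) (kr (sw A) (1 : Matrix (C × C) (C × C) ℂ)) := by
      show _ * _ = _ * _
      rw [kr_mul, kr_mul, (sw_comm v).eq, Matrix.mul_one, Matrix.one_mul]
    have h3 : Commute (kr (v ⊗ₖ v) (w ⊗ₖ w)) (kr (1 : Matrix (A × A) (A × A) ℂ) (sw C)) := by
      show _ * _ = _ * _
      rw [kr_mul, kr_mul, (sw_comm w).eq, Matrix.mul_one, Matrix.one_mul]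
    have h4 : Commute (kr (v ⊗ₖ v) (w ⊗ₖ w)) (kr (sw A) (sw C)) := by
      show _ * _ = _ * _
      rw [kr_mul, kr_mul, (sw_comm w).eq, (sw_comm v).eq]
    exact (((h1.smul_right _).add_right (h2.smul_right _)).add_right (h3.smul_right _)).add_right
      (h4.smul_right _)

end H23

end Vale.Agent.P372
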