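import Vale.Agent.P372.H23.Swap

open Matrix Kronecker
open scoped ComplexOrder MatrixOrder

set_option linter.unusedSectionVars false

namespace Vale.Agent.P372

namespace H23

variable {A B : Type} [Fintype A] [DecidableEq A] [Fintype B] [DecidableEq B]

/-- Lift from the first two systems. -/
def l12 (M : Matrix (A × B) (A × B) ℂ) : Matrix (A × B × B) (A × B × B) ℂ :=
  fun p q => M (p.1, p.2.1) (q.1, q.2.1) * if p.2.2 = q.2.2 then 1 else 0

/-- Lift from the first and the third system. -/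
def l13 (M : Matrix (A × B) (A × B) ℂ) : Matrix (A × B × B) (A × B × B) ℂ :=
  fun p q => M (p.1, p.2.2) (q.1, q.2.2) * if p.2.1 = q.2.1 then 1 else 0

theorem l12_apply_mul (M : Matrix (A × B) (A × B) ℂ) (N : Matrix (A × B × B) (A × B × B) ℂ)
    (p q : A × B × B) : (l12 M * N) p q =
      ∑ a, ∑ b, M (p.1, p.2.1) (a, b) * N (a, b, p.2.2) q := by
  simp only [Matrix.mul_apply, l12, Fintype.sum_prod_type]
  refine Finset.sum_congr rfl fun a _ => Finset.sum_congr rfl fun b _ => ?_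
  rw [Finset.sum_eq_single p.2.2]
  · simp
  · intro c _ hc
    simp [Ne.symm hc]
  · simp

theorem mul_l12_apply (M : Matrix (A × B) (A × B) ℂ) (N : Matrix (A × B × B) (A × B × B) ℂ)
    (p q : A × B × B) : (N * l12 M) p q =
      ∑ a, ∑ b, N p (a, b, q.2.2) * M (a, b) (q.1, q.2.1) := by
  simp only [Matrix.mul_apply, l12, Fintype.sum_prod_type]
  refine Finset.sum_congr rfl fun a _ => Finset.sum_congr rfl fun b _ => ?_
  rw [Finset.sum_eq_single q.2.2]
  · simp
  · intro c _ hc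
    simp [hc]
  · simp

theorem l13_apply_mul (M : Matrix (A × B) (A × B) ℂ) (N : Matrix (A × B × B) (A × B × B) ℂ)
    (p q : A × B × B) : (l13 M * N) p q =
      ∑ a, ∑ c, M (p.1, p.2.2) (a, c) * N (a, p.2.1, c) q := by
  simp only [Matrix.mul_apply, l13, Fintype.sum_prod_type]
  refine Finset.sum_congr rfl fun a _ => ?_
  rw [Finset.sum_eq_single p.2.1]
  · simp
  · intro c _ hc
    simp [Ne.symm hc]
  · simp

theorem mul_l13_apply (M : Matrix (A × B) (A × B) ℂ) (N : Matrix (A × B × B) (A × B × B) ℂ)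
    (p q : A × B × B) : (N * l13 M) p q =
      ∑ a, ∑ c, N p (a, q.2.1, c) * M (a, c) (q.1, q.2.2) := by
  simp only [Matrix.mul_apply, l13, Fintype.sum_prod_type]
  refine Finset.sum_congr rfl fun a _ => ?_
  rw [Finset.sum_eq_single q.2.1]
  · simp
  · intro c _ hc
    simp [hc]
  · simp

theorem l12_mul (M N : Matrix (A × B) (A × B) ℂ) : l12 M * l12 N = l12 (M * N) := by
  ext p q
  rw [l12_apply_mul]
  simp only [l12, Matrix.mul_apply, Fintype.sum_prod_type, Finset.sum_mul]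
  refine Finset.sum_congr rfl fun a _ => Finset.sum_congr rfl fun b _ => ?_
  ring

theorem l13_mul (M N : Matrix (A × B) (A × B) ℂ) : l13 M * l13 N = l13 (M * N) := by
  ext p q
  rw [l13_apply_mul]
  simp only [l13, Matrix.mul_apply, Fintype.sum_prod_type, Finset.sum_mul]
  refine Finset.sum_congr rfl fun a _ => Finset.sum_congr rfl fun b _ => ?_
  ring

theorem l12_conj (M : Matrix (A × B) (A × B) ℂ) : (l12 M)ᴴ = l12 Mᴴ := by
  ext p q
  simp only [l12, conjTranspose_apply, star_mul']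
  congr 1
  by_cases h : p.2.2 = q.2.2
  · rw [if_pos h, if_pos h.symm, star_one]
  · rw [if_neg h, if_neg (fun h' => h h'.symm), star_zero]

theorem l13_conj (M : Matrix (A × B) (A × B) ℂ) : (l13 M)ᴴ = l13 Mᴴ := by
  ext p q
  simp only [l13, conjTranspose_apply, star_mul']
  congr 1
  by_cases h : p.2.1 = q.2.1
  · rw [if_pos h, if_pos h.symm, star_one]
  · rw [if_neg h, if_neg (fun h' => h h'.symm), star_zero]

/-- Marginals. -/
def m1 (M : Matrix (A × B × B) (A × B × B) ℂ) : Matrix (A × B) (A × B) ℂ :=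
  fun p q => ∑ c, M (p.1, p.2, c) (q.1, q.2, c)

def m2 (M : Matrix (A × B × B) (A × B × B) ℂ) : Matrix (A × B) (A × B) ℂ :=
  fun p q => ∑ b, M (p.1, b, p.2) (q.1, b, q.2)

theorem m1_left (X : Matrix (A × B) (A × B) ℂ) (M : Matrix (A × B × B) (A × B × B) ℂ) :
    m1 (l12 X * M) = X * m1 M := by
  ext p q
  rw [Matrix.mul_apply, Fintype.sum_prod_type]
  simp only [m1, l12_apply_mul, Finset.mul_sum]
  rw [Finset.sum_comm]
  refine Finset.sum_congr rfl fun a _ => ?_
  rw [Finset.sum_comm]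

theorem m1_right (Y : Matrix (A × B) (A × B) ℂ) (M : Matrix (A × B × B) (A × B × B) ℂ) :
    m1 (M * l12 Y) = m1 M * Y := by
  ext p q
  rw [Matrix.mul_apply, Fintype.sum_prod_type]
  simp only [m1, mul_l12_apply, Finset.sum_mul]
  rw [Finset.sum_comm]
  refine Finset.sum_congr rfl fun a _ => ?_
  rw [Finset.sum_comm]

theorem m2_left (X : Matrix (A × B) (A × B) ℂ) (M : Matrix (A × B × B) (A × B × B) ℂ) :
    m2 (l13 X * M) = X * m2 M := by
  ext p q
  rw [Matrix.mul_apply, Fintype.sum_prod_type]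
  simp only [m2, l13_apply_mul, Finset.mul_sum]
  rw [Finset.sum_comm]
  refine Finset.sum_congr rfl fun a _ => ?_
  rw [Finset.sum_comm]

theorem m2_right (Y : Matrix (A × B) (A × B) ℂ) (M : Matrix (A × B × B) (A × B × B) ℂ) :
    m2 (M * l13 Y) = m2 M * Y := by
  ext p q
  rw [Matrix.mul_apply, Fintype.sum_prod_type]
  simp only [m2, mul_l13_apply, Finset.sum_mul]
  rw [Finset.sum_comm]
  refine Finset.sum_congr rfl fun a _ => ?_
  rw [Finset.sum_comm]

theorem m1_l12 (X Y : Matrix (A × B) (A × B) ℂ) (M : Matrix (A × B × B) (A × B × B) ℂ) :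
    m1 (l12 X * M * l12 Y) = X * m1 M * Y := by
  rw [m1_right, m1_left]

theorem m2_l13 (X Y : Matrix (A × B) (A × B) ℂ) (M : Matrix (A × B × B) (A × B × B) ℂ) :
    m2 (l13 X * M * l13 Y) = X * m2 M * Y := by
  rw [m2_right, m2_left]

/-- The projection on Bob's system, as an operator on both systems. -/
def pr (A : Type) [DecidableEq A] (Pi : Matrix B B ℂ) : Matrix (A × B) (A × B) ℂ :=
  (1 : Matrix A A ℂ) ⊗ₖ Pi

theorem pr_apply (Pi : Matrix B B ℂ) (p q : A × B) :
    pr A Pi p q = (if p.1 = q.1 then 1 else 0) * Pi p.2 q.2 := by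
  rw [pr, kroneckerMap_apply, Matrix.one_apply]

theorem l13_pr_mul (Pi : Matrix B B ℂ) (M : Matrix (A × B × B) (A × B × B) ℂ) (a : A) (b c : B)
    (q : A × B × B) : (l13 (pr A Pi) * M) (a, b, c) q = ∑ c', Pi c c' * M (a, b, c') q := by
  rw [l13_apply_mul, Finset.sum_eq_single a]
  · refine Finset.sum_congr rfl fun c' _ => ?_
    rw [pr_apply]
    simp
  · intro a' _ ha
    refine Finset.sum_eq_zero fun c' _ => ?_
    rw [pr_apply]
    simp [Ne.symm ha]
  · simp

theorem mul_l13_pr (Pi : Matrix B B ℂ) (M : Matrix (A × B × B) (A × B × B) ℂ) (a : A) (b c : B)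
    (p : A × B × B) : (M * l13 (pr A Pi)) p (a, b, c) = ∑ c', M p (a, b, c') * Pi c' c := by
  rw [mul_l13_apply, Finset.sum_eq_single a]
  · refine Finset.sum_congr rfl fun c' _ => ?_
    rw [pr_apply]
    simp
  · intro a' _ ha
    refine Finset.sum_eq_zero fun c' _ => ?_
    rw [pr_apply]
    simp [ha]
  · simp

theorem l12_pr_mul (Pi : Matrix B B ℂ) (M : Matrix (A × B × B) (A × B × B) ℂ) (a : A) (b c : B)
    (q : A × B × B) : (l12 (pr A Pi) * M) (a, b, c) q = ∑ b', Pi b b' * M (a, b', c) q := by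
  rw [l12_apply_mul, Finset.sum_eq_single a]
  · refine Finset.sum_congr rfl fun c' _ => ?_
    rw [pr_apply]
    simp
  · intro a' _ ha
    refine Finset.sum_eq_zero fun c' _ => ?_
    rw [pr_apply]
    simp [Ne.symm ha]
  · simp

theorem mul_l12_pr (Pi : Matrix B B ℂ) (M : Matrix (A × B × B) (A × B × B) ℂ) (a : A) (b c : B)
    (p : A × B × B) : (M * l12 (pr A Pi)) p (a, b, c) = ∑ b', M p (a, b', c) * Pi b' b := by
  rw [mul_l12_apply, Finset.sum_eq_single a]
  · refine Finset.sum_congr rfl fun c' _ => ?_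
    rw [pr_apply]
    simp
  · intro a' _ ha
    refine Finset.sum_eq_zero fun c' _ => ?_
    rw [pr_apply]
    simp [ha]
  · simp

/-- Contraction with a projection. -/
theorem sum_proj {Pi : Matrix B B ℂ} (h2 : Pi * Pi = Pi) (N : Matrix B B ℂ) :
    ∑ c, ∑ c', N c c' * Pi c' c = ∑ c, ∑ c', (∑ c'', Pi c c'' * N c'' c') * Pi c' c := by
  have h : (N * Pi).trace = (Pi * N * Pi).trace := by
    rw [Matrix.trace_mul_comm (Pi * N) Pi, ← Matrix.mul_assoc, h2, Matrix.trace_mul_comm]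
  simpa only [Matrix.trace, Matrix.diag, Matrix.mul_apply] using h

theorem ctrL_eq_m1 {Pi : Matrix B B ℂ} (h2 : Pi * Pi = Pi)
    (M : Matrix (A × B × B) (A × B × B) ℂ) :
    BF.ctrL M Pi = m1 (l13 (pr A Pi) * M * l13 (pr A Pi)) := by
  ext p q
  rw [BF.ctrL, m1]
  simp only [mul_l13_pr, l13_pr_mul]
  exact sum_proj h2 fun c c' => M (p.1, p.2, c) (q.1, q.2, c')

theorem ctrM_eq_m2 {Pi : Matrix B B ℂ} (h2 : Pi * Pi = Pi)
    (M : Matrix (A × B × B) (A × B × B) ℂ) :
    BF.ctrM M Pi = m2 (l12 (pr A Pi) * M * l12 (pr A Pi)) := by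
  ext p q
  rw [BF.ctrM, m2]
  simp only [mul_l12_pr, l12_pr_mul]
  exact sum_proj h2 fun c c' => M (p.1, c, p.2) (q.1, c', q.2)

theorem l13_pr_comm (Pi : Matrix B B ℂ) (X : Matrix (A × B) (A × B) ℂ) :
    l13 (pr A Pi) * l12 X = l12 X * l13 (pr A Pi) := by
  ext p q
  obtain ⟨a, b, c⟩ := p
  obtain ⟨a', b', c'⟩ := q
  rw [l13_pr_mul, mul_l13_pr]
  rw [Finset.sum_eq_single c', Finset.sum_eq_single c]
  · simp only [l12, if_true]
    ring
  · intro e _ he
    simp [l12, Ne.symm he]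
  · simp
  · intro e _ he
    simp [l12, he]
  · simp

theorem l12_pr_comm (Pi : Matrix B B ℂ) (X : Matrix (A × B) (A × B) ℂ) :
    l12 (pr A Pi) * l13 X = l13 X * l12 (pr A Pi) := by
  ext p q
  obtain ⟨a, b, c⟩ := p
  obtain ⟨a', b', c'⟩ := q
  rw [l12_pr_mul, mul_l12_pr]
  rw [Finset.sum_eq_single b', Finset.sum_eq_single b]
  · simp only [l13, if_true]
    ring
  · intro e _ he
    simp [l13, Ne.symm he]
  · simp
  · intro e _ he
    simp [l13, he]
  · simp

end H23

end Vale.Agent.P372
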